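import Mathlib

/-!
# Generalities on derivations (row 268)

Author: helper76.
-/

open Finset

namespace Crest.Agent.R268

/-- Closes membership goals in a subring-like object from membership of the atoms. -/
macro "memtac" : tactic =>
  `(tactic| repeat' (first
    | with_reducible assumption
    | with_reducible apply add_mem
    | with_reducible apply sub_mem
    | with_reducible apply mul_mem
    | with_reducible apply pow_mem
    | with_reducible apply neg_mem
    | with_reducible apply one_mem
    | with_reducible apply zero_mem))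

section Basic

variable {k A : Type*} [CommRing k] [CommRing A] [Algebra k A]

/-- Iterated Leibniz rule. -/
theorem iterate_mul (D : Derivation k A A) (n : ℕ) (a b : A) :
    D^[n] (a * b) = ∑ ij ∈ antidiagonal n, n.choose ij.1 • (D^[ij.1] a * D^[ij.2] b) := by
  induction n with
  | zero => simp
  | succ n ih =>
    rw [sum_antidiagonal_choose_succ_nsmul (M := A) (fun i j => D^[i] a * D^[j] b) n]
    simp only [Function.iterate_succ_apply', ih, map_sum, map_nsmul, Derivation.leibniz,
      smul_eq_mul, smul_add, sum_add_distrib, add_right_inj]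
    refine sum_congr rfl fun ⟨i, j⟩ hij => ?_
    rw [n.choose_symm_of_eq_add (mem_antidiagonal.1 hij).symm, mul_comm]

theorem iterate_zero (D : Derivation k A A) (n : ℕ) : D^[n] 0 = 0 :=
  Function.iterate_fixed (map_zero D) n

theorem iterate_add (D : Derivation k A A) (n : ℕ) (a b : A) :
    D^[n] (a + b) = D^[n] a + D^[n] b := by
  induction n with
  | zero => rfl
  | succ n ih => simp only [Function.iterate_succ_apply', ih, map_add]

theorem iterate_eq_zero_of_le (D : Derivation k A A) {m n : ℕ} {a : A} (h : D^[m] a = 0)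
    (hmn : m ≤ n) : D^[n] a = 0 := by
  obtain ⟨l, rfl⟩ := Nat.exists_eq_add_of_le' hmn
  rw [Function.iterate_add_apply, h, iterate_zero]

theorem iterate_mul_of_eq_zero (D : Derivation k A A) {c : A} (hc : D c = 0) (n : ℕ) (a : A) :
    D^[n] (c * a) = c * D^[n] a := by
  induction n with
  | zero => rfl
  | succ n ih => simp [Function.iterate_succ_apply', ih, hc]

/-- The elements killed by a power of `D` form a subalgebra. -/
def nilSub (D : Derivation k A A) : Subalgebra k A where
  carrier := {a | ∃ n, D^[n] a = 0}
  mul_mem' := by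
    rintro a b ⟨m, hm⟩ ⟨n, hn⟩
    refine ⟨m + n, ?_⟩
    rw [iterate_mul]
    refine sum_eq_zero fun ij hij => ?_
    have h := mem_antidiagonal.1 hij
    rcases le_or_gt m ij.1 with h1 | h1
    · rw [iterate_eq_zero_of_le D hm h1, zero_mul, smul_zero]
    · rw [iterate_eq_zero_of_le D hn (by omega : n ≤ ij.2), mul_zero, smul_zero]
  add_mem' := by
    rintro a b ⟨m, hm⟩ ⟨n, hn⟩
    refine ⟨m + n, ?_⟩
    rw [iterate_add, iterate_eq_zero_of_le D hm (by omega), iterate_eq_zero_of_le D hn (by omega),
      add_zero]
  algebraMap_mem' := fun r => ⟨1, by simp⟩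

theorem mem_nilSub {D : Derivation k A A} {a : A} : a ∈ nilSub D ↔ ∃ n, D^[n] a = 0 := Iff.rfl

theorem lnd_of_X {σ : Type*} (D : Derivation k (MvPolynomial σ k) (MvPolynomial σ k))
    (h : ∀ i, ∃ n, D^[n] (MvPolynomial.X i) = 0) (p : MvPolynomial σ k) : ∃ n, D^[n] p = 0 := by
  have : (⊤ : Subalgebra k (MvPolynomial σ k)) ≤ nilSub D := by
    rw [← MvPolynomial.adjoin_range_X, Algebra.adjoin_le_iff]
    rintro _ ⟨i, rfl⟩
    exact h i
  exact this Algebra.mem_top

theorem lnd_pderiv {σ : Type*} (i : σ) (p : MvPolynomial σ k) :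
    ∃ n, (MvPolynomial.pderiv i)^[n] p = 0 := by
  refine lnd_of_X _ (fun j => ⟨2, ?_⟩) p
  by_cases h : j = i
  · subst h
    simp
  · simp [MvPolynomial.pderiv_X_of_ne h]

/-- Transport of a derivation along an algebra isomorphism. -/
noncomputable def conj {B : Type*} [CommRing B] [Algebra k B] (e : A ≃ₐ[k] B)
    (D : Derivation k B B) : Derivation k A A :=
  Derivation.mk' (e.symm.toLinearMap ∘ₗ (D : B →ₗ[k] B) ∘ₗ e.toLinearMap) (by
    intro a b
    simp)

@[simp] theorem conj_apply {B : Type*} [CommRing B] [Algebra k B] (e : A ≃ₐ[k] B)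
    (D : Derivation k B B) (a : A) : conj e D a = e.symm (D (e a)) := rfl

/-- Intertwining of derivations along a ring map out of a polynomial ring is checked on
variables. -/
theorem intertwine {σ k' B : Type*} [CommRing k'] [CommRing B] [Algebra k' B]
    (φ : MvPolynomial σ k →+* B) (D : Derivation k (MvPolynomial σ k) (MvPolynomial σ k))
    (d : Derivation k' B B) (c : B) (hC : ∀ a, d (φ (MvPolynomial.C a)) = 0)
    (hX : ∀ i, c * φ (D (MvPolynomial.X i)) = d (φ (MvPolynomial.X i))) (p : MvPolynomial σ k) :
    c * φ (D p) = d (φ p) := by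
  induction p using MvPolynomial.induction_on with
  | C a => simp [hC]
  | add p q hp hq => simp only [map_add, mul_add, hp, hq]
  | mul_X p i hp =>
    simp only [Derivation.leibniz, smul_eq_mul, map_add, map_mul, ← hp, ← hX i]
    ring

theorem eq_C_of_pderiv_eq_zero {σ K : Type*} [CommRing K] [IsDomain K] [CharZero K]
    (p : MvPolynomial σ K) (h : ∀ i, MvPolynomial.pderiv i p = 0) :
    p = MvPolynomial.C (MvPolynomial.coeff 0 p) := by
  classical
  ext m
  rw [MvPolynomial.coeff_C]
  split_ifs with hm
  · rw [← hm]
  · obtain ⟨i, hi⟩ : ∃ i, m i ≠ 0 := by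
      by_contra hcon
      push Not at hcon
      exact hm (Finsupp.ext fun i => (hcon i).symm)
    have h1 := MvPolynomial.coeff_pderiv (i := i) p (m - Finsupp.single i 1)
    rw [h i, MvPolynomial.coeff_zero, tsub_add_cancel_of_le
      (Finsupp.single_le_iff.2 (Nat.one_le_iff_ne_zero.2 hi))] at h1
    rcases mul_eq_zero.1 h1.symm with h2 | h2
    · exact h2
    · exact absurd h2 (Nat.cast_add_one_ne_zero _)

/-- A surjective endomorphism of a Noetherian ring is injective. -/
theorem injective_of_surjective_endo {R : Type*} [CommRing R] [IsNoetherianRing R] (f : R →+* R)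
    (hf : Function.Surjective f) : Function.Injective f := by
  let c : ℕ →o Ideal R := ⟨fun n => RingHom.ker (f ^ n), monotone_nat_of_le_succ fun n x hx => by
    rw [RingHom.mem_ker] at hx ⊢
    rw [pow_succ', RingHom.coe_mul, Function.comp_apply, hx, map_zero]⟩
  obtain ⟨n, hn⟩ := monotone_stabilizes_iff_noetherian.2 (inferInstance : IsNoetherian R R) c
  rw [injective_iff_map_eq_zero]
  intro x hx
  have hs : Function.Surjective (f ^ n) := by
    rw [RingHom.coe_pow]
    exact hf.iterate n
  obtain ⟨y, rfl⟩ := hs x
  have h1 : y ∈ c (n + 1) := by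
    change y ∈ RingHom.ker (f ^ (n + 1))
    rw [RingHom.mem_ker, pow_succ', RingHom.coe_mul, Function.comp_apply, hx]
  rw [← hn (n + 1) (Nat.le_succ n)] at h1
  exact h1

end Basic

section Exp

variable {A L : Type*} [CommRing A] [Algebra ℂ A] [Field L] [CharZero L]

/-- The exponential of a derivation, followed by a map of coefficients to a field. -/
noncomputable def expSeries (D : Derivation ℂ A A) (ρ : A →+* L) : A →+* PowerSeries L where
  toFun a := PowerSeries.mk fun n => ρ (D^[n] a) / (n.factorial : L)
  map_one' := by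
    ext n
    rcases n with _ | n
    · simp
    · simp [Function.iterate_succ_apply, PowerSeries.coeff_one]
  map_zero' := by
    ext n
    simp
  map_add' a b := by
    ext n
    simp [add_div]
  map_mul' a b := by
    ext n
    rw [PowerSeries.coeff_mul, PowerSeries.coeff_mk, iterate_mul, map_sum, sum_div]
    refine sum_congr rfl fun ij hij => ?_
    have h := mem_antidiagonal.1 hij
    rw [PowerSeries.coeff_mk, PowerSeries.coeff_mk, map_nsmul, map_mul, nsmul_eq_mul, ← h,
      Nat.cast_add_choose]
    have h1 : ((ij.1).factorial : L) ≠ 0 := by exact_mod_cast Nat.factorial_ne_zero _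
    have h2 : ((ij.2).factorial : L) ≠ 0 := by exact_mod_cast Nat.factorial_ne_zero _
    have h3 : ((ij.1 + ij.2).factorial : L) ≠ 0 := by exact_mod_cast Nat.factorial_ne_zero _
    field_simp

/-- For a locally nilpotent derivation the exponential takes polynomial values. -/
theorem exists_expPoly (D : Derivation ℂ A A) (ρ : A →+* L) (hD : ∀ a, ∃ n, D^[n] a = 0) :
    ∃ Φ : A →+* Polynomial L, ∀ a n, (Φ a).coeff n = ρ (D^[n] a) / (n.factorial : L) := by
  have h : ∀ a, ∃ p : Polynomial L, (p : PowerSeries L) = expSeries D ρ a := by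
    intro a
    obtain ⟨n, hn⟩ := hD a
    refine ⟨PowerSeries.trunc n (expSeries D ρ a), ?_⟩
    ext m
    rw [Polynomial.coeff_coe, PowerSeries.coeff_trunc]
    split_ifs with hm
    · rfl
    · simp [expSeries, iterate_eq_zero_of_le D hn (not_lt.1 hm)]
  choose Φ hΦ using h
  have hinj := Polynomial.coe_injective L
  refine ⟨{ toFun := Φ
            map_one' := hinj (by simp [hΦ])
            map_mul' := fun a b => hinj (by simp [hΦ])
            map_zero' := hinj (by simp [hΦ])
            map_add' := fun a b => hinj (by simp [hΦ]) }, fun a n => ?_⟩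
  change (Φ a).coeff n = _
  rw [← Polynomial.coeff_coe, hΦ]
  simp [expSeries]

end Exp

end Crest.Agent.R268
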