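import Mathlib
import Crest.Agent.R268.LND

/-!
# Commuting locally nilpotent derivations from a generic trivialisation (row 268)

Author: helper76.
-/

open MvPolynomial

namespace Crest.Agent.R268

variable {σ ι : Type}

/-- Evaluation of a polynomial with coefficients in `ℂ[T]` at `T = t`, `X a = g a`. -/
noncomputable def jm {R : Type} [CommRing R] [Algebra ℂ R] (t : R) (g : ι → R) :
    MvPolynomial ι (Polynomial ℂ) →+* R :=
  eval₂Hom (Polynomial.aeval t : Polynomial ℂ →ₐ[ℂ] R) g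

section

variable {R : Type} [CommRing R] [Algebra ℂ R] (t : R) (g : ι → R)

@[simp] theorem jm_C (q : Polynomial ℂ) : jm t g (C q) = Polynomial.aeval t q := by simp [jm]
@[simp] theorem jm_X (a : ι) : jm t g (X a) = g a := by simp [jm]

/-- The saturation of `ℂ[t, g]` with respect to `t`. -/
def satAlg : Subalgebra ℂ R where
  carrier := {r | ∃ (k : ℕ) (P : MvPolynomial ι (Polynomial ℂ)), t ^ k * r = jm t g P}
  mul_mem' := by
    rintro a b ⟨k, P, hP⟩ ⟨l, Q, hQ⟩
    exact ⟨k + l, P * Q, by rw [map_mul, ← hP, ← hQ]; ring⟩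
  add_mem' := by
    rintro a b ⟨k, P, hP⟩ ⟨l, Q, hQ⟩
    refine ⟨k + l, C (Polynomial.X ^ l) * P + C (Polynomial.X ^ k) * Q, ?_⟩
    rw [map_add, map_mul, map_mul, ← hP, ← hQ, jm_C, jm_C, map_pow, map_pow, Polynomial.aeval_X]
    ring
  algebraMap_mem' := fun c => ⟨0, C (Polynomial.C c), by simp⟩

theorem t_mem_satAlg : t ∈ satAlg t g := ⟨0, C Polynomial.X, by simp⟩
theorem g_mem_satAlg (a : ι) : g a ∈ satAlg t g := ⟨0, X a, by simp⟩
theorem satAlg_sat (r : R) (h : t * r ∈ satAlg t g) : r ∈ satAlg t g := by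
  obtain ⟨k, P, hP⟩ := h
  exact ⟨k + 1, P, by rw [← hP]; ring⟩

variable {t g}

theorem phi_jm (φ : R →ₐ[ℂ] MvPolynomial ι (RatFunc ℂ)) (ht : φ t = C RatFunc.X)
    (hg : ∀ a, φ (g a) = X a) (P : MvPolynomial ι (Polynomial ℂ)) :
    φ (jm t g P) = map (algebraMap (Polynomial ℂ) (RatFunc ℂ)) P := by
  induction P using MvPolynomial.induction_on with
  | C q =>
    rw [jm_C, map_C, ← Polynomial.aeval_algHom_apply, ht, ← RatFunc.aeval_X_left_eq_algebraMap]
    exact Polynomial.aeval_algHom_apply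
      (IsScalarTower.toAlgHom ℂ (RatFunc ℂ) (MvPolynomial ι (RatFunc ℂ))) RatFunc.X q
  | add p q hp hq => simp only [map_add, hp, hq]
  | mul_X p i hp => simp only [map_mul, hp, jm_X, hg, map_X]

theorem phi_injective [IsDomain R] (φ : R →ₐ[ℂ] MvPolynomial ι (RatFunc ℂ))
    (ht : φ t = C RatFunc.X) (hg : ∀ a, φ (g a) = X a) (hsat : ∀ r, r ∈ satAlg t g) :
    Function.Injective φ := by
  have ht0 : t ≠ 0 := by
    rintro rfl
    rw [map_zero, eq_comm, C_eq_zero] at ht
    exact RatFunc.X_ne_zero ht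
  rw [injective_iff_map_eq_zero]
  intro r hr
  obtain ⟨k, P, hP⟩ := hsat r
  have h1 := phi_jm φ ht hg P
  rw [← hP, map_mul, hr, mul_zero] at h1
  have h2 : P = 0 := map_injective _ (RatFunc.algebraMap_injective ℂ) (by rw [← h1, map_zero])
  rw [h2, map_zero] at hP
  exact (mul_eq_zero.1 hP).resolve_left (pow_ne_zero _ ht0)

theorem mem_adjoin_of_pow_mul [IsDomain R] (ht0 : t ≠ 0) (ev : R →ₐ[ℂ] ℂ) (hev : ev t = 0)
    (k : ℕ) (r : R) (q : Polynomial ℂ) (h : t ^ k * r = Polynomial.aeval t q) :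
    r ∈ Algebra.adjoin ℂ {t} := by
  induction k generalizing q with
  | zero =>
    rw [pow_zero, one_mul] at h
    rw [h]
    exact Polynomial.aeval_mem_adjoin_singleton ℂ t
  | succ k ih =>
    have h1 := congrArg ev h
    rw [map_mul, map_pow, hev, zero_pow (Nat.succ_ne_zero k), zero_mul,
      ← Polynomial.aeval_algHom_apply, hev, Polynomial.coe_aeval_eq_eval,
      ← Polynomial.coeff_zero_eq_eval_zero] at h1
    obtain ⟨q', rfl⟩ := Polynomial.X_dvd_iff.2 h1.symm
    apply ih q'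
    apply mul_left_cancel₀ ht0
    rw [← mul_assoc, ← pow_succ', h, map_mul, Polynomial.aeval_X]

theorem commuting_family [IsDomain R] [Fintype ι] (φ : R →ₐ[ℂ] MvPolynomial ι (RatFunc ℂ))
    (ht : φ t = C RatFunc.X) (hg : ∀ a, φ (g a) = X a) (hsat : ∀ r, r ∈ satAlg t g)
    (ev : R →ₐ[ℂ] ℂ) (hev : ev t = 0) (D : ι → Derivation ℂ R R) (c : ι → RatFunc ℂ)
    (hc : ∀ a, c a ≠ 0) (hD : ∀ a r, φ (D a r) = C (c a) * pderiv a (φ r)) :
    (∀ a b p, D a (D b p) = D b (D a p)) ∧ (∀ a p, ∃ k : ℕ, (D a)^[k] p = 0) ∧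
      LinearIndependent R D ∧ (∀ p, (∀ a, D a p = 0) ↔ p ∈ Algebra.adjoin ℂ {t}) := by
  classical
  have hinj := phi_injective φ ht hg hsat
  have ht0 : t ≠ 0 := by
    rintro rfl
    rw [map_zero, eq_comm, C_eq_zero] at ht
    exact RatFunc.X_ne_zero ht
  refine ⟨fun a b p => hinj ?_, fun a p => ?_, ?_, fun p => ⟨fun hp => ?_, fun hp a => ?_⟩⟩
  · have hcomm : ∀ q : MvPolynomial ι (RatFunc ℂ), pderiv a (pderiv b q) = pderiv b (pderiv a q) := by
      intro q
      ext n
      simp only [coeff_pderiv, Finsupp.coe_add, Pi.add_apply, Finsupp.single_apply]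
      rw [add_right_comm]
      by_cases hab : a = b
      · subst hab; rfl
      · rw [if_neg hab, if_neg (Ne.symm hab)]
        push_cast
        ring
    rw [hD, hD, hD, hD, pderiv_C_mul, pderiv_C_mul, hcomm]
    ring
  · obtain ⟨k, hk⟩ := lnd_pderiv a (φ p)
    refine ⟨k, hinj ?_⟩
    have : ∀ n, φ ((D a)^[n] p) = C (c a ^ n) * (pderiv a)^[n] (φ p) := by
      intro n
      induction n with
      | zero => simp
      | succ n ih =>
        rw [Function.iterate_succ_apply', hD, ih, pderiv_C_mul, Function.iterate_succ_apply',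
          pow_succ', map_mul, mul_assoc]
    rw [this, hk, mul_zero, map_zero]
  · rw [Fintype.linearIndependent_iff]
    intro u hu b
    have h0 : ∀ (s : Finset ι) (r : R), (∑ a ∈ s, u a • D a) r = ∑ a ∈ s, u a * D a r := by
      intro s r
      induction s using Finset.induction_on with
      | empty => simp
      | insert a s ha ih => simp [Finset.sum_insert ha, ih]
    have h1 := congrArg (fun d : Derivation ℂ R R => φ (d (g b))) hu
    simp only [h0, map_sum, map_mul, hD, hg, Derivation.coe_zero, Pi.zero_apply, map_zero] at h1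
    rw [Finset.sum_eq_single b (fun a _ hab => by rw [pderiv_X_of_ne hab.symm]; simp)
      (by simp), pderiv_X_self, mul_one] at h1
    apply hinj
    rw [map_zero]
    exact (mul_eq_zero.1 h1).resolve_right (by rw [C_eq_zero]; exact hc b)
  · obtain ⟨k, P, hP⟩ := hsat p
    have h1 : ∀ a, pderiv a (φ p) = 0 := by
      intro a
      have h2 := hD a p
      rw [hp a, map_zero] at h2
      exact (mul_eq_zero.1 h2.symm).resolve_left (by rw [C_eq_zero]; exact hc a)
    have h2 : ∀ a, pderiv a P = 0 := by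
      intro a
      apply map_injective _ (RatFunc.algebraMap_injective ℂ)
      rw [← pderiv_map, ← phi_jm φ ht hg, ← hP, map_mul, map_pow, ht, ← map_pow, pderiv_C_mul, h1,
        mul_zero, map_zero]
    rw [eq_C_of_pderiv_eq_zero P h2, jm_C] at hP
    exact mem_adjoin_of_pow_mul ht0 ev hev k p _ hP
  · rw [Algebra.adjoin_singleton_eq_range_aeval] at hp
    obtain ⟨q, rfl⟩ := hp
    have h1 : D a t = 0 := hinj (by rw [hD, ht, pderiv_C, mul_zero, map_zero])
    change D a (Polynomial.aeval t q) = 0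
    rw [Derivation.map_aeval, h1, smul_zero]

end

theorem exists_lift [Finite σ] {t : MvPolynomial σ ℂ} {g : ι → MvPolynomial σ ℂ}
    (φ : MvPolynomial σ ℂ →ₐ[ℂ] MvPolynomial ι (RatFunc ℂ))
    (ht : φ t = C RatFunc.X) (hg : ∀ a, φ (g a) = X a) (hsat : ∀ r, r ∈ satAlg t g) (a : ι) :
    ∃ (D : Derivation ℂ (MvPolynomial σ ℂ) (MvPolynomial σ ℂ)) (c : RatFunc ℂ), c ≠ 0 ∧
      ∀ r, φ (D r) = C c * pderiv a (φ r) := by
  have h1 : ∀ i : σ, ∃ (k : ℕ) (P : MvPolynomial ι (Polynomial ℂ)), t ^ k * X i = jm t g P :=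
    fun i => hsat (X i)
  choose k P hP using h1
  obtain ⟨N, hN⟩ := (Set.finite_range k).bddAbove
  have hN' : ∀ i, k i ≤ N := fun i => hN ⟨i, rfl⟩
  refine ⟨mkDerivation ℂ fun i => t ^ (N - k i) * jm t g (pderiv a (P i)), RatFunc.X ^ N,
    pow_ne_zero _ RatFunc.X_ne_zero, fun r => ?_⟩
  have := intertwine (k' := RatFunc ℂ) (φ : MvPolynomial σ ℂ →+* MvPolynomial ι (RatFunc ℂ))
    (mkDerivation ℂ fun i => t ^ (N - k i) * jm t g (pderiv a (P i)))
    ((C (RatFunc.X ^ N) : MvPolynomial ι (RatFunc ℂ)) • pderiv a) 1 (fun z => ?_) (fun i => ?_) r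
  · simpa using this
  · have : φ (C z) = C (algebraMap ℂ (RatFunc ℂ) z) := φ.commutes z
    simp [this]
  · rw [one_mul, mkDerivation_X]
    change φ (t ^ (N - k i) * jm t g (pderiv a (P i))) = C (RatFunc.X ^ N) * pderiv a (φ (X i))
    rw [map_mul, map_pow, phi_jm φ ht hg, ← pderiv_map, ← phi_jm φ ht hg, ← hP, map_mul, map_pow,
      ht, ← map_pow, ← map_pow, pderiv_C_mul, ← mul_assoc, ← map_mul, ← pow_add,
      Nat.sub_add_cancel (hN' i)]

end Crest.Agent.R268
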