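import Mathlib
import Crest.Agent.R268.LND

/-!
# A polynomial on affine 4-space with general fibre affine 3-space and a singular fibre

Construction due to helper73 (team notes).  With coordinates `h, u, v, w` put
`x = u^3 + h v`, `y = -u^2 + h w`, `x^2 + y^3 = h s`, and twist `X = x + s^3`, `Y = y - s^2`,
`X^2 + Y^3 = T s`.  The polynomial is `T`.
-/

namespace Crest.Agent.R268

section Generic

variable {A B : Type*} [CommRing A] [CommRing B]

def px (p : Fin 4 → A) : A := p 1 ^ 3 + p 0 * p 2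
def py (p : Fin 4 → A) : A := -p 1 ^ 2 + p 0 * p 3
def ps (p : Fin 4 → A) : A :=
  2 * p 1 ^ 3 * p 2 + 3 * p 1 ^ 4 * p 3 + p 0 * (p 2 ^ 2 - 3 * p 1 ^ 2 * p 3 ^ 2) + p 0 ^ 2 * p 3 ^ 3
def pa (p : Fin 4 → A) : A := p 1 * p 2 + 2 * p 1 ^ 2 * p 3 - p 0 * p 3 ^ 2
def pb (p : Fin 4 → A) : A := p 1 * p 3 + p 2
def al (s : A) : A := 2 * s ^ 2
def be (s y : A) : A := 3 * s ^ 3 - 3 * s * y
def pT (p : Fin 4 → A) : A := p 0 + al (ps p) * px p + be (ps p) (py p) * py p
def pX (p : Fin 4 → A) : A := px p + ps p ^ 3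
def pY (p : Fin 4 → A) : A := py p - ps p ^ 2
def pS (p : Fin 4 → A) : A := p 1 + al (ps p) * pa p + be (ps p) (py p) * pb p

theorem cusp_eq (p : Fin 4 → A) : px p ^ 2 + py p ^ 3 = p 0 * ps p := by
  simp only [px, py, ps]; ring

theorem cusp_eq' (p : Fin 4 → A) : pX p ^ 2 + pY p ^ 3 = pT p * ps p := by
  have h := cusp_eq p
  simp only [pX, pY, pT, al, be]
  linear_combination h

theorem u_eq (p : Fin 4 → A) :
    p 1 * pT p = p 0 * pS p + (al (ps p) * py p ^ 2 - be (ps p) (py p) * px p) := by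
  have h1 : p 1 * px p = py p ^ 2 + p 0 * pa p := by simp only [px, py, pa]; ring
  have h2 : p 1 * py p = -px p + p 0 * pb p := by simp only [px, py, pb]; ring
  simp only [pT, pS]
  linear_combination al (ps p) * h1 + be (ps p) (py p) * h2

variable {F : Type*} [FunLike F A B] [RingHomClass F A B]

theorem map_px (φ : F) (p : Fin 4 → A) : φ (px p) = px (fun i => φ (p i)) := by simp [px]
theorem map_py (φ : F) (p : Fin 4 → A) : φ (py p) = py (fun i => φ (p i)) := by simp [py]
theorem map_ps (φ : F) (p : Fin 4 → A) : φ (ps p) = ps (fun i => φ (p i)) := by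
  simp [ps, map_ofNat]
theorem map_pa (φ : F) (p : Fin 4 → A) : φ (pa p) = pa (fun i => φ (p i)) := by
  simp [pa, map_ofNat]
theorem map_pb (φ : F) (p : Fin 4 → A) : φ (pb p) = pb (fun i => φ (p i)) := by simp [pb]
theorem map_al (φ : F) (s : A) : φ (al s) = al (φ s) := by simp [al, map_ofNat]
theorem map_be (φ : F) (s y : A) : φ (be s y) = be (φ s) (φ y) := by simp [be, map_ofNat]
theorem map_pT (φ : F) (p : Fin 4 → A) : φ (pT p) = pT (fun i => φ (p i)) := by
  simp only [pT, map_add, map_mul, map_al, map_be, map_px, map_py, map_ps]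
theorem map_pX (φ : F) (p : Fin 4 → A) : φ (pX p) = pX (fun i => φ (p i)) := by
  simp only [pX, map_add, map_pow, map_px, map_ps]
theorem map_pY (φ : F) (p : Fin 4 → A) : φ (pY p) = pY (fun i => φ (p i)) := by
  simp only [pY, map_sub, map_pow, map_py, map_ps]
theorem map_pS (φ : F) (p : Fin 4 → A) : φ (pS p) = pS (fun i => φ (p i)) := by
  simp only [pS, map_add, map_mul, map_al, map_be, map_pa, map_pb, map_py, map_ps]

/-- The two key divisibilities. -/
theorem key_w {h x y s α β T S : A} (h1 : x ^ 2 + y ^ 3 = h * s) (h2 : h + α * x + β * y = T) :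
    T ^ 2 * y + (h * S + (α * y ^ 2 - β * x)) ^ 2 =
      h * (T * y + α * y * (α * s + x) + β * (y ^ 2 + β * s) +
        2 * S * (α * y ^ 2 - β * x) + h * S ^ 2) := by
  subst h2
  linear_combination (α ^ 2 * y + β ^ 2) * h1

theorem key_v {h x y s α β T S : A} (h1 : x ^ 2 + y ^ 3 = h * s) (h2 : h + α * x + β * y = T) :
    T ^ 3 * x - (h * S + (α * y ^ 2 - β * x)) ^ 3 =
      h * (T ^ 2 * (α * s + x) - (α * y ^ 2 - β * x) *
        (T * y + α * y * (α * s + x) + β * (y ^ 2 + β * s)) -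
        3 * S * (α * y ^ 2 - β * x) ^ 2 - 3 * h * S ^ 2 * (α * y ^ 2 - β * x) - h ^ 2 * S ^ 3) := by
  have hw : T ^ 2 * y + (α * y ^ 2 - β * x) ^ 2 =
      h * (T * y + α * y * (α * s + x) + β * (y ^ 2 + β * s)) := by
    subst h2
    linear_combination (α ^ 2 * y + β ^ 2) * h1
  have hy : (α * y ^ 2 - β * x) * y = -x * T + h * (α * s + x) := by
    subst h2
    linear_combination α * h1
  linear_combination -(α * y ^ 2 - β * x) * hw + T ^ 2 * hy

/-- Every value of `(T, X, Y, S)` with `T` invertible is attained. -/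
theorem exists_point [IsDomain A] [Nontrivial B] (T T' X Y S : A) (hT : T * T' = 1)
    (ev : A →+* B) (hX : ev X = 0) (hY : ev Y = 0) :
    ∃ p : Fin 4 → A, pT p = T ∧ pX p = X ∧ pY p = Y ∧ pS p = S := by
  obtain ⟨s, hs⟩ : ∃ s, s = T' * (X ^ 2 + Y ^ 3) := ⟨_, rfl⟩
  obtain ⟨x, hx⟩ : ∃ x, x = X - s ^ 3 := ⟨_, rfl⟩
  obtain ⟨y, hy⟩ : ∃ y, y = Y + s ^ 2 := ⟨_, rfl⟩
  obtain ⟨h, hh⟩ : ∃ h, h = T - al s * x - be s y * y := ⟨_, rfl⟩
  have hTs : T * s = X ^ 2 + Y ^ 3 := by rw [hs, ← mul_assoc, hT, one_mul]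
  have h1 : x ^ 2 + y ^ 3 = h * s := by
    rw [hh, hx, hy, al, be]
    linear_combination -hTs
  have h2 : h + al s * x + be s y * y = T := by rw [hh]; ring
  have hh0 : h ≠ 0 := by
    intro h0
    have e1 : ev s = 0 := by rw [hs]; simp [hX, hY]
    have e2 : ev h = ev T := by rw [hh]; simp [al, be, e1]
    have e3 : ev T * ev T' = 1 := by rw [← map_mul, hT, map_one]
    rw [← e2, h0, map_zero, zero_mul] at e3
    exact zero_ne_one e3
  have kw := key_w (S := S) h1 h2
  have kv := key_v (S := S) h1 h2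
  set U := h * S + (al s * y ^ 2 - be s y * x) with hU
  obtain ⟨W, hW⟩ : ∃ W, T ^ 2 * y + U ^ 2 = h * W := ⟨_, kw⟩
  obtain ⟨V, hV⟩ : ∃ V, T ^ 3 * x - U ^ 3 = h * V := ⟨_, kv⟩
  let p : Fin 4 → A := ![h, T' * U, T' ^ 3 * V, T' ^ 2 * W]
  have p0 : p 0 = h := rfl
  have p1 : p 1 = T' * U := rfl
  have ex : px p = x := by
    change (T' * U) ^ 3 + h * (T' ^ 3 * V) = x
    linear_combination -T' ^ 3 * hV + x * (T ^ 2 * T' ^ 2 + T * T' + 1) * hT
  have ey : py p = y := by
    change -(T' * U) ^ 2 + h * (T' ^ 2 * W) = y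
    linear_combination -T' ^ 2 * hW + y * (T * T' + 1) * hT
  have es : ps p = s := by
    apply mul_left_cancel₀ hh0
    rw [← h1, ← ex, ← ey, cusp_eq, p0]
  have eT : pT p = T := by rw [pT, ex, ey, es, p0, h2]
  refine ⟨p, eT, ?_, ?_, ?_⟩
  · rw [pX, ex, es, hx]; ring
  · rw [pY, ey, es, hy]; ring
  · apply mul_left_cancel₀ hh0
    have h3 := u_eq p
    rw [eT, ex, ey, es, p0, p1] at h3
    linear_combination -h3 + U * hT + hU

/-- After inverting `T`, the functions `T, X, Y, S` generate. -/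
theorem mem_of_saturated {k : Type*} [CommRing k] [Algebra k A] [IsDomain A] (p : Fin 4 → A)
    (h0 : p 0 ≠ 0) (M : Subalgebra k A) (hT : pT p ∈ M) (hX : pX p ∈ M) (hY : pY p ∈ M)
    (hS : pS p ∈ M) (hsat : ∀ r, pT p * r ∈ M → r ∈ M) (i : Fin 4) : p i ∈ M := by
  have hsat' : ∀ n r, pT p ^ n * r ∈ M → r ∈ M := by
    intro n
    induction n with
    | zero => intro r hr; simpa using hr
    | succ n ih =>
      intro r hr
      apply ih
      apply hsat
      rwa [← mul_assoc, ← pow_succ']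
  have h2 : (2 : A) ∈ M := by exact_mod_cast natCast_mem M 2
  have h3 : (3 : A) ∈ M := by exact_mod_cast natCast_mem M 3
  have hs : ps p ∈ M := hsat _ (by rw [← cusp_eq']; exact add_mem (pow_mem hX _) (pow_mem hY _))
  have hx : px p ∈ M := by
    have : px p = pX p - ps p ^ 3 := by rw [pX]; ring
    rw [this]; exact sub_mem hX (pow_mem hs _)
  have hy : py p ∈ M := by
    have : py p = pY p + ps p ^ 2 := by rw [pY]; ring
    rw [this]; exact add_mem hY (pow_mem hs _)
  have hal : al (ps p) ∈ M := mul_mem h2 (pow_mem hs _)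
  have hbe : be (ps p) (py p) ∈ M :=
    sub_mem (mul_mem h3 (pow_mem hs _)) (mul_mem (mul_mem h3 hs) hy)
  have hh : p 0 ∈ M := by
    have : p 0 = pT p - al (ps p) * px p - be (ps p) (py p) * py p := by rw [pT]; ring
    rw [this]; exact sub_mem (sub_mem hT (mul_mem hal hx)) (mul_mem hbe hy)
  have hu : p 1 ∈ M := by
    apply hsat
    rw [mul_comm, u_eq]
    exact add_mem (mul_mem hh hS) (sub_mem (mul_mem hal (pow_mem hy _)) (mul_mem hbe hx))
  have kw := key_w (S := pS p) (cusp_eq p) (rfl : _ = pT p)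
  have kv := key_v (S := pS p) (cusp_eq p) (rfl : _ = pT p)
  rw [← u_eq] at kw kv
  have hw : p 3 ∈ M := by
    apply hsat' 2
    have e : pT p ^ 2 * py p + (p 1 * pT p) ^ 2 = p 0 * (pT p ^ 2 * p 3) := by
      rw [py]; ring
    rw [e] at kw
    rw [mul_left_cancel₀ h0 kw]
    memtac
  have hv : p 2 ∈ M := by
    apply hsat' 3
    have e : pT p ^ 3 * px p - (p 1 * pT p) ^ 3 = p 0 * (pT p ^ 3 * p 2) := by
      rw [px]; ring
    rw [e] at kv
    rw [mul_left_cancel₀ h0 kv]
    memtac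
  fin_cases i
  · exact hh
  · exact hu
  · exact hv
  · exact hw

/-- The critical point. -/
def crit : Fin 4 → ℂ := ![2, 1, -1, 1]

theorem crit_ps : ps crit = 1 := by simp [ps, crit]; norm_num
theorem crit_pX : pX crit = 0 := by rw [pX, crit_ps]; simp [px, crit]; norm_num
theorem crit_pY : pY crit = 0 := by rw [pY, crit_ps]; simp [py, crit]; norm_num
theorem crit_pT : pT crit = 0 := by
  have h := cusp_eq' crit
  rw [crit_pX, crit_pY, crit_ps] at h
  simpa using h.symm

/-- Every derivation of `T` vanishes at the critical point. -/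
theorem deriv_pT_crit {k : Type*} [CommRing k] [Algebra k A] (D : Derivation k A A)
    (p : Fin 4 → A) (ev : A →+* ℂ) (hev : ∀ i, ev (p i) = crit i) : ev (D (pT p)) = 0 := by
  have hp : (fun i => ev (p i)) = crit := funext hev
  have h := congrArg (fun a => ev (D a)) (cusp_eq' p)
  simp only [map_add, Derivation.leibniz_pow, Derivation.leibniz, smul_eq_mul, nsmul_eq_mul,
    map_mul, map_pow, map_pX, map_pY, map_pT, map_ps, hp, crit_pX, crit_pY, crit_pT,
    crit_ps] at h
  simpa using h.symm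

end Generic

end Crest.Agent.R268
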