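import Mathlib
import Crest.Agent.R268.LND

/-!
# Degenerating a locally nilpotent derivation modulo an invariant (row 268)

Author: helper76.
-/

open MvPolynomial

namespace Crest.Agent.R268

variable {ι : Type}

/-- Setting the extra variable to zero. -/
noncomputable def kap (ι : Type) : MvPolynomial (Option ι) ℂ →ₐ[ℂ] MvPolynomial ι ℂ :=
  aeval fun o => o.elim 0 X

@[simp] theorem kap_none : kap ι (X none) = 0 := by simp [kap]
@[simp] theorem kap_some (i : ι) : kap ι (X (some i)) = X i := by simp [kap]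
@[simp] theorem kap_rename (G : MvPolynomial ι ℂ) : kap ι (rename some G) = G := by
  induction G using MvPolynomial.induction_on with
  | C a => simp [kap]
  | add p q hp hq => simp only [map_add, hp, hq]
  | mul_X p i hp => simp only [map_mul, hp, rename_X, kap_some]

theorem dvd_sub_rename_kap (G : MvPolynomial (Option ι) ℂ) :
    X none ∣ G - rename some (kap ι G) := by
  induction G using MvPolynomial.induction_on with
  | C a => simp [kap]
  | add p q hp hq =>
    have := dvd_add hp hq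
    rw [map_add, map_add]
    convert this using 1
    ring
  | mul_X p i hp =>
    rcases i with _ | i
    · simp
    · rw [map_mul, map_mul, kap_some, rename_X, ← sub_mul]
      exact hp.mul_right _

/-- `Δ` induces a non-zero locally nilpotent derivation of the image of `ρ`. -/
structure QL {R : Type} [CommRing R] [Algebra ℂ R] (ρ : MvPolynomial ι ℂ →ₐ[ℂ] R)
    (Δ : Derivation ℂ (MvPolynomial ι ℂ) (MvPolynomial ι ℂ)) : Prop where
  ker : ∀ G, ρ G = 0 → ρ (Δ G) = 0
  nil : ∀ G, ∃ n, ρ (Δ^[n] G) = 0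
  ne : ∃ i, ρ (Δ (X i)) ≠ 0

variable {B R : Type} [CommRing B] [IsDomain B] [Algebra ℂ B] [CommRing R] [Nontrivial R]
  [Algebra ℂ R] [Finite ι]

theorem divide_out {κ : Type} (π : MvPolynomial (Option ι) ℂ →ₐ[ℂ] B)
    (ρ : MvPolynomial ι ℂ →ₐ[ℂ] R) (H1 : ∀ G, π G = 0 → ρ (kap ι G) = 0)
    (H4 : ∀ G, ρ (kap ι G) = 0 → ∃ G', π G = π (X none) * π G')
    (G : κ → MvPolynomial (Option ι) ℂ) (hG : ∃ i, π (G i) ≠ 0) :
    ∃ (n : ℕ) (G' : κ → MvPolynomial (Option ι) ℂ),
      (∀ i, π (G i) = π (X none) ^ n * π (G' i)) ∧ ∃ i, ρ (kap ι (G' i)) ≠ 0 := by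
  by_contra hcon
  push Not at hcon
  have hall : ∀ n : ℕ, ∃ G' : κ → MvPolynomial (Option ι) ℂ,
      ∀ i, π (G i) = π (X none) ^ n * π (G' i) := by
    intro n
    induction n with
    | zero => exact ⟨G, fun i => by simp⟩
    | succ n ih =>
      obtain ⟨G', hG'⟩ := ih
      choose G'' hG'' using fun i => H4 _ (hcon n G' hG' i)
      exact ⟨G'', fun i => by rw [hG', hG'', pow_succ, mul_assoc]⟩
  obtain ⟨i, hi⟩ := hG
  have : IsNoetherianRing π.range :=
    isNoetherianRing_of_surjective _ _ π.rangeRestrict.toRingHom π.rangeRestrict_surjective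
  have hu : ¬ IsUnit (π.rangeRestrict (X none)) := by
    intro hu
    obtain ⟨b, hb⟩ := hu.exists_right_inv
    obtain ⟨G', rfl⟩ := π.rangeRestrict_surjective b
    have h1 : π (X none * G' - 1) = 0 := by
      have := congrArg Subtype.val hb
      rw [map_sub, map_mul, map_one, sub_eq_zero]
      exact this
    have h2 := H1 _ h1
    simp at h2
  have hne : π.rangeRestrict (G i) ≠ 0 := fun h => hi (congrArg Subtype.val h)
  obtain ⟨n, hn⟩ := FiniteMultiplicity.of_not_isUnit hu hne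
  obtain ⟨G', hG'⟩ := hall (n + 1)
  exact hn ⟨π.rangeRestrict (G' i), Subtype.ext (hG' i)⟩

theorem degen {k : Type} [CommRing k] [Algebra k B] (π : MvPolynomial (Option ι) ℂ →ₐ[ℂ] B)
    (ρ : MvPolynomial ι ℂ →ₐ[ℂ] R) (H1 : ∀ G, π G = 0 → ρ (kap ι G) = 0)
    (H4 : ∀ G, ρ (kap ι G) = 0 → ∃ G', π G = π (X none) * π G') (ht : π (X none) ≠ 0)
    (d : Derivation k B B) (hC : ∀ c : ℂ, d (algebraMap ℂ B c) = 0) (hdt : d (π (X none)) = 0)
    (hnil : ∀ G, ∃ n, d^[n] (π G) = 0)
    (H2 : ∀ i, ∃ (n : ℕ) (G : MvPolynomial (Option ι) ℂ),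
      π (X none) ^ n * d (π (X (some i))) = π G)
    (H3 : ∃ i, d (π (X (some i))) ≠ 0) :
    ∃ Δ, QL ρ Δ ∧ ∀ G, d (π G) = 0 → ρ (Δ (kap ι G)) = 0 := by
  set t := π (X none) with htdef
  choose m G hG using H2
  obtain ⟨N, hN⟩ := (Set.finite_range m).bddAbove
  have hN' : ∀ i, m i ≤ N := fun i => hN ⟨i, rfl⟩
  have hG1 : ∀ i, π (X none ^ (N - m i) * G i) = t ^ N * d (π (X (some i))) := by
    intro i
    rw [map_mul, map_pow, ← hG, ← mul_assoc, ← pow_add, Nat.sub_add_cancel (hN' i)]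
  obtain ⟨n, G', hG', hne⟩ := divide_out π ρ H1 H4 (fun i => X none ^ (N - m i) * G i) (by
    obtain ⟨i, hi⟩ := H3
    exact ⟨i, by rw [hG1]; exact mul_ne_zero (pow_ne_zero _ ht) hi⟩)
  simp only [hG1] at hG'
  let Δ : Derivation ℂ (MvPolynomial (Option ι) ℂ) (MvPolynomial (Option ι) ℂ) :=
    mkDerivation ℂ fun o => o.elim 0 G'
  let Δ₀ : Derivation ℂ (MvPolynomial ι ℂ) (MvPolynomial ι ℂ) :=
    mkDerivation ℂ fun i => kap ι (G' i)
  have h1 : ∀ F, t ^ n * π (Δ F) = t ^ N * d (π F) := by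
    intro F
    have := intertwine (π : MvPolynomial (Option ι) ℂ →+* B) Δ ((t ^ N) • d) (t ^ n)
      (fun c => ?_) (fun o => ?_) F
    · simpa using this
    · have : π (C c) = algebraMap ℂ B c := π.commutes c
      simp [this, hC]
    · rcases o with _ | i
      · simp [Δ, mkDerivation_X, ← htdef, hdt]
      · simp [Δ, mkDerivation_X, hG' i, ← htdef]
  have h2 : ∀ F, kap ι (Δ F) = Δ₀ (kap ι F) := by
    intro F
    have := intertwine (kap ι : MvPolynomial (Option ι) ℂ →+* MvPolynomial ι ℂ) Δ Δ₀ 1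
      (fun c => ?_) (fun o => ?_) F
    · simpa using this
    · simp [kap]
    · rcases o with _ | i
      · simp [Δ, mkDerivation_X]
      · simp [Δ, Δ₀, mkDerivation_X]
  have h3 : ∀ F, d (π F) = 0 → ρ (Δ₀ (kap ι F)) = 0 := by
    intro F hF
    have := h1 F
    rw [hF, mul_zero] at this
    rw [← h2]
    exact H1 _ ((mul_eq_zero.1 this).resolve_left (pow_ne_zero _ ht))
  have hdp : ∀ (j : ℕ) (b : B), d (t ^ j * b) = t ^ j * d b := by
    intro j b
    simp [Derivation.leibniz_pow, hdt]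
  refine ⟨Δ₀, ⟨fun F hF => ?_, fun F => ?_, ?_⟩, h3⟩
  · obtain ⟨F', hF'⟩ := H4 (rename some F) (by rwa [kap_rename])
    have := h3 (rename some F - X none * F') (by rw [map_sub, map_mul, hF', sub_self, map_zero])
    simpa using this
  · obtain ⟨j, hj⟩ := hnil (rename some F)
    have h4 : ∀ l : ℕ, t ^ (n * l) * π (Δ^[l] (rename some F)) =
        t ^ (N * l) * d^[l] (π (rename some F)) := by
      intro l
      induction l with
      | zero => simp
      | succ l ih =>
        rw [Function.iterate_succ_apply', Function.iterate_succ_apply', Nat.mul_succ, pow_add,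
          mul_assoc, h1, mul_left_comm, ← hdp, ih, hdp, Nat.mul_succ, pow_add]
        ring
    have h5 : ∀ l : ℕ, kap ι (Δ^[l] (rename some F)) = Δ₀^[l] F := by
      intro l
      induction l with
      | zero => simp
      | succ l ih => rw [Function.iterate_succ_apply', Function.iterate_succ_apply', h2, ih]
    refine ⟨j, ?_⟩
    have := h4 j
    rw [hj, mul_zero] at this
    rw [← h5]
    exact H1 _ ((mul_eq_zero.1 this).resolve_left (pow_ne_zero _ ht))
  · obtain ⟨i, hi⟩ := hne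
    exact ⟨i, by simpa [Δ₀, mkDerivation_X] using hi⟩

/-- The saturation of the image of `π`. -/
def satR (π : MvPolynomial (Option ι) ℂ →ₐ[ℂ] B) : Subalgebra ℂ B where
  carrier := {r | ∃ (n : ℕ) (G : MvPolynomial (Option ι) ℂ), π (X none) ^ n * r = π G}
  mul_mem' := by
    rintro a b ⟨k, P, hP⟩ ⟨l, Q, hQ⟩
    exact ⟨k + l, P * Q, by rw [map_mul, ← hP, ← hQ]; ring⟩
  add_mem' := by
    rintro a b ⟨k, P, hP⟩ ⟨l, Q, hQ⟩
    refine ⟨k + l, X none ^ l * P + X none ^ k * Q, ?_⟩
    rw [map_add, map_mul, map_mul, ← hP, ← hQ, map_pow, map_pow]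
    ring
  algebraMap_mem' := fun c => ⟨0, C c, by rw [pow_zero, one_mul]; exact (π.commutes c).symm⟩

omit [IsDomain B] [Finite ι] in
theorem mem_satR (π : MvPolynomial (Option ι) ℂ →ₐ[ℂ] B) (G : MvPolynomial (Option ι) ℂ) :
    π G ∈ satR π := ⟨0, G, by simp⟩

omit [IsDomain B] [Finite ι] in
theorem satR_sat (π : MvPolynomial (Option ι) ℂ →ₐ[ℂ] B) (r : B) (h : π (X none) * r ∈ satR π) :
    r ∈ satR π := by
  obtain ⟨k, P, hP⟩ := h
  exact ⟨k + 1, P, by rw [← hP]; ring⟩

end Crest.Agent.R268
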