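import Mathlib
import Crest.Agent.R268.LND

/-!
# A stable coordinate in four variables (row 268)

With coordinates `a, b, c, d` put `x = a b + c d`, `J = a - b`; the polynomial is
`t = c (1 - x J) - a x^2`.  Author: helper76.
-/

namespace Crest.Agent.R268

section Generic

variable {A B : Type*} [CommRing A] [CommRing B]

def qx (p : Fin 4 → A) : A := p 0 * p 1 + p 2 * p 3
def qJ (p : Fin 4 → A) : A := p 0 - p 1
def qt (p : Fin 4 → A) : A := p 2 * (1 - qx p * qJ p) - p 0 * qx p ^ 2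
def qs (p : Fin 4 → A) : A := p 0 * (1 + qx p * qJ p) + p 2 * qJ p ^ 2
def qF (p : Fin 4 → A) : A := p 3 * (1 + qx p * qJ p) - p 1 * qJ p ^ 2
def qr (p : Fin 4 → A) : A := p 3 * qx p ^ 2 + p 1 * (1 - qx p * qJ p)
def qu (p : Fin 4 → A) : A := qr p - qs p
def qy (p : Fin 4 → A) : A := qs p * qx p + qt p * qJ p
def qz (p : Fin 4 → A) : A := qs p + qx p ^ 2 - qy p * qu p

theorem q_a (p : Fin 4 → A) : p 0 = qs p * (1 - qx p * qJ p) - qt p * qJ p ^ 2 := by
  simp only [qs, qt]; ring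
theorem q_b (p : Fin 4 → A) : p 1 = qr p * (1 + qx p * qJ p) - qF p * qx p ^ 2 := by
  simp only [qr, qF]; ring
theorem q_c (p : Fin 4 → A) : p 2 = qs p * qx p ^ 2 + qt p * (1 + qx p * qJ p) := by
  simp only [qs, qt]; ring
theorem q_d (p : Fin 4 → A) : p 3 = qF p * (1 - qx p * qJ p) + qr p * qJ p ^ 2 := by
  simp only [qr, qF]; ring
theorem q_rel1 (p : Fin 4 → A) : qx p = qs p * qr p + qt p * qF p := by
  have h : qx p = p 0 * p 1 + p 2 * p 3 := rfl
  simp only [qs, qr, qt, qF]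
  linear_combination h
theorem q_rel2 (p : Fin 4 → A) : qx p ^ 2 * qF p - (1 + qx p * (qs p + qr p)) * qJ p
    - qt p * qJ p ^ 2 = qr p - qs p := by
  have h : qJ p = p 0 - p 1 := rfl
  linear_combination -h - q_a p + q_b p
theorem q_rel3 (p : Fin 4 → A) : qt p * qu p = qx p * qz p - qy p * (qy p + 1) := by
  simp only [qz, qy, qu]
  linear_combination -qt p * q_rel2 p - qx p ^ 2 * q_rel1 p
theorem q_rel4 (p : Fin 4 → A) :
    qx p ^ 3 - qy p * (qy p + qx p * qu p) = qt p * (qu p + qJ p) := by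
  simp only [qy, qu]
  linear_combination qt p * q_rel2 p + qx p ^ 2 * q_rel1 p

variable {F : Type*} [FunLike F A B] [RingHomClass F A B]

theorem map_qx (φ : F) (p : Fin 4 → A) : φ (qx p) = qx (fun i => φ (p i)) := by simp [qx]
theorem map_qJ (φ : F) (p : Fin 4 → A) : φ (qJ p) = qJ (fun i => φ (p i)) := by simp [qJ]
theorem map_qt (φ : F) (p : Fin 4 → A) : φ (qt p) = qt (fun i => φ (p i)) := by
  simp only [qt, map_sub, map_mul, map_pow, map_one, map_qx, map_qJ]
theorem map_qs (φ : F) (p : Fin 4 → A) : φ (qs p) = qs (fun i => φ (p i)) := by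
  simp only [qs, map_add, map_mul, map_pow, map_one, map_qx, map_qJ]
theorem map_qF (φ : F) (p : Fin 4 → A) : φ (qF p) = qF (fun i => φ (p i)) := by
  simp only [qF, map_add, map_sub, map_mul, map_pow, map_one, map_qx, map_qJ]
theorem map_qr (φ : F) (p : Fin 4 → A) : φ (qr p) = qr (fun i => φ (p i)) := by
  simp only [qr, map_add, map_sub, map_mul, map_pow, map_one, map_qx, map_qJ]
theorem map_qu (φ : F) (p : Fin 4 → A) : φ (qu p) = qu (fun i => φ (p i)) := by
  simp only [qu, map_sub, map_qr, map_qs]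
theorem map_qy (φ : F) (p : Fin 4 → A) : φ (qy p) = qy (fun i => φ (p i)) := by
  simp only [qy, map_add, map_mul, map_qs, map_qx, map_qt, map_qJ]
theorem map_qz (φ : F) (p : Fin 4 → A) : φ (qz p) = qz (fun i => φ (p i)) := by
  simp only [qz, map_add, map_sub, map_mul, map_pow, map_qs, map_qx, map_qy, map_qu]

/-- The universal point. -/
theorem exists_qpoint (t s r F J x : A) (h1 : x = s * r + t * F)
    (h2 : x ^ 2 * F - (1 + x * (s + r)) * J - t * J ^ 2 = r - s) :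
    ∃ p : Fin 4 → A, qt p = t ∧ qs p = s ∧ qr p = r ∧ qF p = F ∧ qJ p = J ∧ qx p = x := by
  let p : Fin 4 → A := ![s * (1 - x * J) - t * J ^ 2, r * (1 + x * J) - F * x ^ 2,
    s * x ^ 2 + t * (1 + x * J), F * (1 - x * J) + r * J ^ 2]
  have p0 : p 0 = s * (1 - x * J) - t * J ^ 2 := rfl
  have p1 : p 1 = r * (1 + x * J) - F * x ^ 2 := rfl
  have p2 : p 2 = s * x ^ 2 + t * (1 + x * J) := rfl
  have p3 : p 3 = F * (1 - x * J) + r * J ^ 2 := rfl
  have ex : qx p = x := by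
    rw [qx, p0, p1, p2, p3]
    linear_combination -h1
  have eJ : qJ p = J := by
    rw [qJ, p0, p1]
    linear_combination h2
  refine ⟨p, ?_, ?_, ?_, ?_, eJ, ex⟩
  · rw [qt, ex, eJ, p0, p2]; ring
  · rw [qs, ex, eJ, p0, p2]; ring
  · rw [qr, ex, eJ, p1, p3]; ring
  · rw [qF, ex, eJ, p1, p3]; ring

theorem exists_qpoint_unit (t t' x y z : A) (ht : t * t' = 1) :
    ∃ p : Fin 4 → A, qt p = t ∧ qx p = x ∧ qy p = y ∧ qz p = z ∧
      qu p = t' * (x * z - y * (y + 1)) := by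
  obtain ⟨u, hu⟩ : ∃ u, u = t' * (x * z - y * (y + 1)) := ⟨_, rfl⟩
  obtain ⟨s, hs⟩ : ∃ s, s = z - x ^ 2 + y * u := ⟨_, rfl⟩
  obtain ⟨F, hF⟩ : ∃ F, F = t' * (x - s * (s + u)) := ⟨_, rfl⟩
  obtain ⟨J, hJ⟩ : ∃ J, J = t' * (y - s * x) := ⟨_, rfl⟩
  have e1 : t * u = x * z - y * (y + 1) := by rw [hu, ← mul_assoc, ht, one_mul]
  have e2 : t * F = x - s * (s + u) := by rw [hF, ← mul_assoc, ht, one_mul]
  have e3 : t * J = y - s * x := by rw [hJ, ← mul_assoc, ht, one_mul]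
  have e4 : t * (x ^ 2 * F - (1 + x * (s + (s + u))) * J - t * J ^ 2 - u) = 0 := by
    have hz : z = s + x ^ 2 - y * u := by rw [hs]; ring
    rw [hz] at e1
    linear_combination x ^ 2 * e2 - (1 + x * (s + (s + u)) + (t * J + (y - s * x))) * e3 - e1
  have e5 : x ^ 2 * F - (1 + x * (s + (s + u))) * J - t * J ^ 2 = (s + u) - s := by
    linear_combination t' * e4 -
      (x ^ 2 * F - (1 + x * (s + (s + u))) * J - t * J ^ 2 - u) * ht
  obtain ⟨p, ht', hs', hr', hF', hJ', hx'⟩ :=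
    exists_qpoint t s (s + u) F J x (by linear_combination -e2) e5
  have eu : qu p = u := by rw [qu, hs', hr']; ring
  have ey : qy p = y := by rw [qy, hs', hx', ht', hJ']; linear_combination e3
  refine ⟨p, ht', hx', ey, ?_, by rw [eu, hu]⟩
  rw [qz, hs', hx', ey, eu, hs]; ring

/-- The third coordinate on the zero fibre. -/
def qT (p : Fin 4 → A) : A := (1 - qx p * (qs p + qr p)) * qF p + (qs p + qr p) ^ 2 * qJ p

theorem map_qT (φ : F) (p : Fin 4 → A) : φ (qT p) = qT (fun i => φ (p i)) := by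
  simp only [qT, map_add, map_sub, map_mul, map_pow, map_one, map_qs, map_qx, map_qr, map_qF,
    map_qJ]

theorem exists_qpoint_zero (s r T : A) :
    ∃ p : Fin 4 → A, qt p = 0 ∧ qs p = s ∧ qr p = r ∧ qT p = T ∧ qx p = s * r := by
  obtain ⟨p, ht', hs', hr', hF', hJ', hx'⟩ :=
    exists_qpoint 0 s r ((s + r) ^ 2 * (r - s) + (1 + s * r * (s + r)) * T)
      (-(1 - s * r * (s + r)) * (r - s) + (s * r) ^ 2 * T) (s * r) (by ring) (by ring)
  refine ⟨p, ht', hs', hr', ?_, hx'⟩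
  rw [qT, hs', hr', hF', hJ', hx']; ring

variable {k : Type*} [CommRing k] [Algebra k A]

theorem mem_of_gens (p : Fin 4 → A) (M : Subalgebra k A) (ht : qt p ∈ M) (hx : qx p ∈ M)
    (hs : qs p ∈ M) (hr : qr p ∈ M) (hF : qF p ∈ M) (hJ : qJ p ∈ M) (i : Fin 4) : p i ∈ M := by
  have h0 : p 0 ∈ M := by rw [q_a p]; memtac
  have h1 : p 1 ∈ M := by rw [q_b p]; memtac
  have h2 : p 2 ∈ M := by rw [q_c p]; memtac
  have h3 : p 3 ∈ M := by rw [q_d p]; memtac
  fin_cases i
  · exact h0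
  · exact h1
  · exact h2
  · exact h3

theorem qmem_of_saturated (p : Fin 4 → A) (M : Subalgebra k A) (ht : qt p ∈ M) (hx : qx p ∈ M)
    (hy : qy p ∈ M) (hz : qz p ∈ M) (hsat : ∀ r, qt p * r ∈ M → r ∈ M) (i : Fin 4) :
    p i ∈ M := by
  have hu : qu p ∈ M := hsat _ (by rw [q_rel3]; memtac)
  have hs : qs p ∈ M := by
    have : qs p = qz p - qx p ^ 2 + qy p * qu p := by rw [qz]; ring
    rw [this]; memtac
  have hr : qr p ∈ M := by
    have : qr p = qs p + qu p := by rw [qu]; ring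
    rw [this]; memtac
  have hF : qF p ∈ M := by
    apply hsat
    have : qt p * qF p = qx p - qs p * qr p := by linear_combination -q_rel1 p
    rw [this]; memtac
  have hJ : qJ p ∈ M := by
    apply hsat
    have : qt p * qJ p = qy p - qs p * qx p := by rw [qy]; ring
    rw [this]; memtac
  exact mem_of_gens p M ht hx hs hr hF hJ i

theorem qmem_of_zero (p : Fin 4 → A) (M : Subalgebra k A) (ht : ∀ r, qt p * r ∈ M)
    (hs : qs p ∈ M) (hr : qr p ∈ M) (hT : qT p ∈ M) (i : Fin 4) : p i ∈ M := by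
  have h1 := ht (qF p)
  have h2 := ht (qJ p ^ 2)
  have hx : qx p ∈ M := by rw [q_rel1]; memtac
  have hF : qF p ∈ M := by
    have : qF p = (qs p + qr p) ^ 2 * (qr p - qs p + qt p * qJ p ^ 2) +
        (1 + qx p * (qs p + qr p)) * qT p := by
      rw [qT]; linear_combination (qs p + qr p) ^ 2 * q_rel2 p
    rw [this]; memtac
  have hJ : qJ p ∈ M := by
    have : qJ p = qx p ^ 2 * qT p -
        (1 - qx p * (qs p + qr p)) * (qr p - qs p + qt p * qJ p ^ 2) := by
      rw [qT]; linear_combination -(1 - qx p * (qs p + qr p)) * q_rel2 p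
    rw [this]; memtac
  exact mem_of_gens p M (by simpa using ht 1) hx hs hr hF hJ i

/-- Stable coordinates. -/
def sE (p : Fin 4 → A) (w : A) : A := qs p + qr p + 2 * qt p * qx p * w
def sJ (p : Fin 4 → A) (w : A) : A := qJ p - qx p ^ 2 * w
def sF (p : Fin 4 → A) (w : A) : A :=
  qF p - (1 + qx p * (qs p + qr p)) * w - qt p * qx p ^ 2 * w ^ 2
def sU (p : Fin 4 → A) (w : A) : A := qx p ^ 2 * sF p w - (1 + qx p * sE p w) * sJ p w
def sT (p : Fin 4 → A) (w : A) : A := (1 - qx p * sE p w) * sF p w + sE p w ^ 2 * sJ p w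
def sW (p : Fin 4 → A) (w : A) : A :=
  4 * w + 4 * sF p w + sJ p w ^ 2 * (2 * sU p w - qt p * sJ p w ^ 2)

theorem sU_eq (p : Fin 4 → A) (w : A) : sU p w = qr p - qs p + qt p * sJ p w ^ 2 := by
  simp only [sU, sF, sE, sJ]
  linear_combination q_rel2 p

theorem smem {A : Type*} [CommRing A] [Algebra ℂ A] (p : Fin 4 → A) (w : A) (M : Subalgebra ℂ A)
    (ht : qt p ∈ M) (hE : sE p w ∈ M) (hU : sU p w ∈ M) (hT : sT p w ∈ M) (hW : sW p w ∈ M) :
    w ∈ M ∧ ∀ i, p i ∈ M := by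
  have h2 : (2 : A) ∈ M := by exact_mod_cast natCast_mem M 2
  have h4 : (4 : A) ∈ M := by exact_mod_cast natCast_mem M 4
  have div2 : ∀ a : A, 2 * a ∈ M → a ∈ M := by
    intro a ha
    have := M.smul_mem ha (2⁻¹ : ℂ)
    rwa [show (2 : A) * a = (2 : ℂ) • a by rw [two_smul, two_mul], smul_smul,
      inv_mul_cancel₀ two_ne_zero, one_smul] at this
  have div4 : ∀ a : A, 4 * a ∈ M → a ∈ M := fun a ha =>
    div2 _ (div2 _ (by rwa [← mul_assoc, show (2 : A) * 2 = 4 by norm_num]))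
  have hx : qx p ∈ M := by
    apply div4
    have : 4 * qx p = sE p w ^ 2 - sU p w ^ 2 + qt p * sW p w := by
      rw [sW, sU_eq, sF, sE]
      linear_combination 4 * q_rel1 p
    rw [this]; memtac
  have hF : sF p w ∈ M := by
    have : sF p w = sE p w ^ 2 * sU p w + (1 + qx p * sE p w) * sT p w := by rw [sU, sT]; ring
    rw [this]; memtac
  have hJ : sJ p w ∈ M := by
    have : sJ p w = qx p ^ 2 * sT p w - (1 - qx p * sE p w) * sU p w := by rw [sU, sT]; ring
    rw [this]; memtac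
  have hw : w ∈ M := by
    apply div4
    have : 4 * w = sW p w - 4 * sF p w - sJ p w ^ 2 * (2 * sU p w - qt p * sJ p w ^ 2) := by
      rw [sW]; ring
    rw [this]; memtac
  have hs : qs p ∈ M := by
    apply div2
    have : 2 * qs p = sE p w - 2 * qt p * qx p * w - (sU p w - qt p * sJ p w ^ 2) := by
      rw [sU_eq, sE]; ring
    rw [this]; memtac
  have hr : qr p ∈ M := by
    apply div2
    have : 2 * qr p = sE p w - 2 * qt p * qx p * w + (sU p w - qt p * sJ p w ^ 2) := by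
      rw [sU_eq, sE]; ring
    rw [this]; memtac
  have hJ' : qJ p ∈ M := by
    have : qJ p = sJ p w + qx p ^ 2 * w := by rw [sJ]; ring
    rw [this]; memtac
  have hF' : qF p ∈ M := by
    have : qF p = sF p w + (1 + qx p * (qs p + qr p)) * w + qt p * qx p ^ 2 * w ^ 2 := by
      rw [sF]; ring
    rw [this]; memtac
  exact ⟨hw, mem_of_gens p M ht hx hs hr hF' hJ'⟩

end Generic

open MvPolynomial

theorem top_le_of_X {σ k : Type*} [CommRing k] (M : Subalgebra k (MvPolynomial σ k))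
    (h : ∀ i, X i ∈ M) (p : MvPolynomial σ k) : p ∈ M := by
  have : (⊤ : Subalgebra k (MvPolynomial σ k)) ≤ M := by
    rw [← adjoin_range_X, Algebra.adjoin_le_iff]
    rintro _ ⟨i, rfl⟩
    exact h i
  exact this Algebra.mem_top

theorem quot_iso (f : MvPolynomial (Fin 4) ℂ) (g : Fin 3 → MvPolynomial (Fin 4) ℂ)
    (φ₀ : MvPolynomial (Fin 4) ℂ →ₐ[ℂ] MvPolynomial (Fin 3) ℂ) (hf : φ₀ f = 0)
    (hg : ∀ i, φ₀ (g i) = X i)
    (hgen : ∀ M : Subalgebra ℂ (MvPolynomial (Fin 4) ℂ), (∀ i, g i ∈ M) → (∀ r, f * r ∈ M) →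
      ∀ i, X i ∈ M) :
    Nonempty ((MvPolynomial (Fin 4) ℂ ⧸ Ideal.span {f}) ≃ₐ[ℂ] MvPolynomial (Fin 3) ℂ) := by
  set I : Ideal (MvPolynomial (Fin 4) ℂ) := Ideal.span {f} with hI
  let φ : (MvPolynomial (Fin 4) ℂ ⧸ I) →ₐ[ℂ] MvPolynomial (Fin 3) ℂ :=
    Ideal.Quotient.liftₐ I φ₀ (by
      intro a ha
      obtain ⟨b, rfl⟩ := Ideal.mem_span_singleton.1 ha
      rw [map_mul, hf, zero_mul])
  let ψ : MvPolynomial (Fin 3) ℂ →ₐ[ℂ] (MvPolynomial (Fin 4) ℂ ⧸ I) :=
    (Ideal.Quotient.mkₐ ℂ I).comp (aeval g)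
  have hφψ : φ.comp ψ = AlgHom.id ℂ _ := by
    apply algHom_ext
    intro i
    have e : ∀ a, φ (Ideal.Quotient.mk I a) = φ₀ a := fun a => rfl
    simp [ψ, e, hg]
  have hinj : Function.Injective ψ :=
    Function.LeftInverse.injective (g := φ) fun a => DFunLike.congr_fun hφψ a
  have hsurj : Function.Surjective ψ := by
    have hM := hgen (ψ.range.comap (Ideal.Quotient.mkₐ ℂ I)) (fun i => ⟨X i, by simp [ψ]⟩)
      (fun r => ⟨0, by
        rw [map_zero, eq_comm]
        exact Ideal.Quotient.eq_zero_iff_mem.2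
          (Ideal.mul_mem_right _ _ (Ideal.mem_span_singleton_self _))⟩)
    intro a
    obtain ⟨b, rfl⟩ := Ideal.Quotient.mk_surjective a
    exact top_le_of_X _ hM b
  exact ⟨(AlgEquiv.ofBijective ψ ⟨hinj, hsurj⟩).symm⟩

theorem fibres (c : ℂ) :
    Nonempty ((MvPolynomial (Fin 4) ℂ ⧸ Ideal.span {qt X - C c}) ≃ₐ[ℂ] MvPolynomial (Fin 3) ℂ) := by
  have hp : ∀ p : Fin 4 → MvPolynomial (Fin 3) ℂ,
      (fun i => aeval p (X i : MvPolynomial (Fin 4) ℂ)) = p := fun p => by funext i; simp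
  by_cases hc : c = 0
  · subst hc
    obtain ⟨p, h1, h2, h3, h4, -⟩ :=
      exists_qpoint_zero (A := MvPolynomial (Fin 3) ℂ) (X 0) (X 1) (X 2)
    rw [C_0, sub_zero]
    refine quot_iso _ ![qs X, qr X, qT X] (aeval p) (by rw [map_qt, hp, h1]) (fun i => ?_)
      (fun M hg hf => qmem_of_zero X M hf (hg 0) (hg 1) (hg 2))
    fin_cases i
    · change aeval p (qs X) = X 0
      rw [map_qs, hp, h2]
    · change aeval p (qr X) = X 1
      rw [map_qr, hp, h3]
    · change aeval p (qT X) = X 2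
      rw [map_qT, hp, h4]
  · obtain ⟨p, h1, h2, h3, h4, -⟩ :=
      exists_qpoint_unit (A := MvPolynomial (Fin 3) ℂ) (C c) (C c⁻¹) (X 0) (X 1) (X 2)
        (by rw [← map_mul, mul_inv_cancel₀ hc, map_one])
    refine quot_iso _ ![qx X, qy X, qz X] (aeval p)
      (by rw [map_sub, map_qt, hp, h1, aeval_C, algebraMap_eq, sub_self]) (fun i => ?_)
      (fun M hg hf => qmem_of_saturated X M ?_ (hg 0) (hg 1) (hg 2) ?_)
    · fin_cases i
      · change aeval p (qx X) = X 0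
        rw [map_qx, hp, h2]
      · change aeval p (qy X) = X 1
        rw [map_qy, hp, h3]
      · change aeval p (qz X) = X 2
        rw [map_qz, hp, h4]
    · have := add_mem (hf 1) (M.algebraMap_mem c)
      simpa using this
    · intro r hr
      have h5 := M.smul_mem (sub_mem hr (hf r)) c⁻¹
      rwa [show qt X * r - (qt X - C c) * r = c • r by rw [smul_eq_C_mul]; ring, smul_smul,
        inv_mul_cancel₀ hc, one_smul] at h5

theorem stable_coordinate :
    ∃ σ : Polynomial (MvPolynomial (Fin 4) ℂ) ≃ₐ[ℂ] Polynomial (MvPolynomial (Fin 4) ℂ),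
      σ (Polynomial.C (qt X)) = Polynomial.C (X 0) := by
  let p : Fin 4 → Polynomial (MvPolynomial (Fin 4) ℂ) := fun i => Polynomial.C (X i)
  let w : Polynomial (MvPolynomial (Fin 4) ℂ) := Polynomial.X
  let Ψ : Polynomial (MvPolynomial (Fin 4) ℂ) →ₐ[ℂ] Polynomial (MvPolynomial (Fin 4) ℂ) :=
    Polynomial.aevalTower (aeval ![qt p, sE p w, sU p w, sT p w]) (sW p w)
  have hC : ∀ i, Ψ (Polynomial.C (X i)) = ![qt p, sE p w, sU p w, sT p w] i := by
    intro i
    simp [Ψ]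
  obtain ⟨hw, hp⟩ := smem p w Ψ.range ⟨_, hC 0⟩ ⟨_, hC 1⟩ ⟨_, hC 2⟩ ⟨_, hC 3⟩
    ⟨Polynomial.X, by simp [Ψ]⟩
  have hsurj : Function.Surjective Ψ := by
    intro a
    change a ∈ Ψ.range
    have hCm : ∀ b : MvPolynomial (Fin 4) ℂ, Polynomial.C b ∈ Ψ.range :=
      top_le_of_X (Ψ.range.comap Polynomial.CAlgHom) hp
    induction a using Polynomial.induction_on with
    | C b => exact hCm b
    | add a b ha hb => exact add_mem ha hb
    | monomial n b _ => exact mul_mem (hCm b) (pow_mem hw _)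
  have hinj : Function.Injective Ψ := injective_of_surjective_endo Ψ.toRingHom hsurj
  refine ⟨(AlgEquiv.ofBijective Ψ ⟨hinj, hsurj⟩).symm, ?_⟩
  rw [AlgEquiv.symm_apply_eq, AlgEquiv.ofBijective_apply, hC, map_qt]
  rfl

end Crest.Agent.R268
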