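import Mathlib
import Crest.Agent.R268.LND
import Crest.Agent.R268.Degen

/-!
# Rigidity on the cylinder over the quadric `x z = y (y + 1)` (row 268)

Author: helper76.
-/

open MvPolynomial

namespace Crest.Agent.R268

/-- The chart `(x, s, u) ↦ (x, x s, s + x s^2, u)` of the cylinder over the quadric. -/
noncomputable def rho (k : Type) [CommRing k] :
    MvPolynomial (Fin 4) k →ₐ[k] MvPolynomial (Fin 3) k :=
  aeval ![X 0, X 0 * X 1, X 1 + X 0 * X 1 ^ 2, X 2]

/-- The equation of the quadric. -/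
noncomputable def qq (k : Type) [CommRing k] : MvPolynomial (Fin 4) k :=
  X 0 * X 2 - X 1 * (X 1 + 1)

section

variable (k : Type) [CommRing k]

@[simp] theorem rho_0 : rho k (X 0) = X 0 := by simp [rho]
@[simp] theorem rho_1 : rho k (X 1) = X 0 * X 1 := by simp [rho]
@[simp] theorem rho_2 : rho k (X 2) = X 1 + X 0 * X 1 ^ 2 := by simp [rho]
@[simp] theorem rho_3 : rho k (X 3) = X 2 := by simp [rho]
@[simp] theorem rho_C (c : k) : rho k (C c) = C c := by simp [rho]

theorem rho_qq : rho k (qq k) = 0 := by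
  simp only [qq, map_sub, map_mul, map_add, map_one, rho_0, rho_1, rho_2]
  ring

/-- The subring of the variables `x, z, u`. -/
noncomputable def iot : MvPolynomial (Fin 3) k →ₐ[k] MvPolynomial (Fin 4) k :=
  aeval ![X 0, X 2, X 3]

theorem normal_form (G : MvPolynomial (Fin 4) k) :
    ∃ A B C', G = iot k A + X 1 * iot k B + qq k * C' := by
  induction G using MvPolynomial.induction_on with
  | C a => exact ⟨C a, 0, 0, by simp [iot]⟩
  | add p q hp hq =>
    obtain ⟨A, B, C', rfl⟩ := hp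
    obtain ⟨A', B', C'', rfl⟩ := hq
    exact ⟨A + A', B + B', C' + C'', by simp only [map_add]; ring⟩
  | mul_X p i hp =>
    obtain ⟨A, B, C', rfl⟩ := hp
    have h0 : iot k (X 0) = X 0 := by simp [iot]
    have h1 : iot k (X 1) = X 2 := by simp [iot]
    have h2 : iot k (X 2) = X 3 := by simp [iot]
    fin_cases i
    · exact ⟨A * X 0, B * X 0, C' * X 0, by simp only [map_mul, h0]; simp; ring⟩
    · exact ⟨X 0 * X 1 * B, A - B, C' * X 1 - iot k B, by
        simp only [map_mul, map_sub, h0, h1, qq]; simp; ring⟩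
    · exact ⟨A * X 1, B * X 1, C' * X 2, by simp only [map_mul, h1]; simp; ring⟩
    · exact ⟨A * X 2, B * X 2, C' * X 3, by simp only [map_mul, h2]; simp; ring⟩

end

theorem ker_rho_aux (k : Type) [Field k] [CharZero k] {F : Type} [Field F] [Algebra k F]
    [IsAlgClosed F] (j : MvPolynomial (Fin 3) k →ₐ[k] F) (hj : Function.Injective j)
    (A B : MvPolynomial (Fin 3) k) (h : rho k (iot k A + X 1 * iot k B) = 0) : A = 0 ∧ B = 0 := by
  have : CharZero F := (RingHom.charZero_iff (algebraMap k F).injective).1 inferInstance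
  have hx : j (X 0) ≠ 0 := fun h0 => X_ne_zero (0 : Fin 3) (hj (by rw [h0, map_zero]))
  obtain ⟨δ, hδ⟩ := IsAlgClosed.exists_eq_mul_self (1 + 4 * j (X 0) * j (X 1))
  have hδ0 : δ ≠ 0 := by
    rintro rfl
    have h1 : (1 + 4 * X 0 * X 1 : MvPolynomial (Fin 3) k) = 0 :=
      hj (by simpa [map_ofNat] using hδ)
    have h2 := congrArg constantCoeff h1
    simp at h2
  have key : ∀ ε : F, ε * ε = 1 + 4 * j (X 0) * j (X 1) → j A + (ε - 1) / 2 * j B = 0 := by
    intro ε hε
    let f : MvPolynomial (Fin 3) k →ₐ[k] F := aeval ![j (X 0), (ε - 1) / (2 * j (X 0)), j (X 2)]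
    have hf : f.comp ((rho k).comp (iot k)) = j := by
      apply algHom_ext
      intro i
      fin_cases i
      · simp [f, iot]
      · simp [f, iot]
        field_simp
        linear_combination hε
      · simp [f, iot]
    have hf' : ∀ a, f (rho k (iot k a)) = j a := fun a => DFunLike.congr_fun hf a
    have h1 := congrArg f h
    rw [map_add, map_mul, map_add, map_mul, hf', hf', map_zero] at h1
    rw [← h1]
    simp [f]
    left
    field_simp
  have h1 := key δ hδ.symm
  have h2 := key (-δ) (by rw [neg_mul_neg]; exact hδ.symm)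
  have h3 : δ * j B = 0 := by linear_combination h1 - h2
  have h4 : j B = 0 := (mul_eq_zero.1 h3).resolve_left hδ0
  rw [h4, mul_zero, add_zero] at h1
  exact ⟨hj (by rw [h1, map_zero]), hj (by rw [h4, map_zero])⟩

theorem ker_rho (k : Type) [Field k] [CharZero k] (G : MvPolynomial (Fin 4) k)
    (h : rho k G = 0) : qq k ∣ G := by
  obtain ⟨A, B, C', rfl⟩ := normal_form k G
  rw [map_add, map_mul (rho k) (qq k), rho_qq, zero_mul, add_zero] at h
  obtain ⟨rfl, rfl⟩ := ker_rho_aux k
    (F := AlgebraicClosure (FractionRing (MvPolynomial (Fin 3) k)))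
    ((IsScalarTower.toAlgHom k (FractionRing (MvPolynomial (Fin 3) k)) _).comp
      (IsScalarTower.toAlgHom k (MvPolynomial (Fin 3) k) (FractionRing (MvPolynomial (Fin 3) k))))
    ((algebraMap (FractionRing (MvPolynomial (Fin 3) k)) _).injective.comp
      (IsFractionRing.injective _ _)) A B h
  simp

local notation "P" => MvPolynomial (Fin 3) ℂ
local notation "LL" => FractionRing (MvPolynomial (Fin 3) ℂ)

theorem notMem_vars_of_pderiv {σ K : Type*} [CommRing K] [IsDomain K] [CharZero K]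
    (p : MvPolynomial σ K) (i : σ) (h : pderiv i p = 0) : i ∉ p.vars := by
  classical
  rw [mem_vars_iff_mem_support]
  rintro ⟨m, hm, hi⟩
  have h1 := coeff_pderiv (i := i) p (m - Finsupp.single i 1)
  rw [h, coeff_zero, tsub_add_cancel_of_le
    (Finsupp.single_le_iff.2 (Nat.one_le_iff_ne_zero.2 (Finsupp.mem_support_iff.1 hi)))] at h1
  rcases mul_eq_zero.1 h1.symm with h2 | h2
  · exact mem_support_iff.1 hm h2
  · exact absurd h2 (Nat.cast_add_one_ne_zero _)

/-- A regular function on the cylinder that only depends on `s, u` and vanishes at `s = 0`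
is zero. -/
theorem eq_zero_of_indep (G : MvPolynomial (Fin 4) ℂ) (A : MvPolynomial (Fin 3) ℂ)
    (hG : rho ℂ G = X 1 * A) (hA : pderiv 0 A = 0) : A = 0 := by
  have hB : pderiv 0 (X 1 * A : P) = 0 := by
    rw [pderiv_mul, hA, pderiv_X_of_ne (by decide)]
    simp
  have hv := notMem_vars_of_pderiv _ _ hB
  let i : Polynomial P →+* RatFunc P := algebraMap _ _
  have hi : Function.Injective i := RatFunc.algebraMap_injective P
  have hT : i Polynomial.X ≠ 0 := fun h => Polynomial.X_ne_zero (hi (by rw [h, map_zero]))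
  let c : ℂ →+* Polynomial P := Polynomial.C.comp C
  let f₂ : P →+* Polynomial P := eval₂Hom c ![0, Polynomial.X, Polynomial.C (X 2)]
  let f₁ : P →+* RatFunc P :=
    eval₂Hom (i.comp c) ![-(i Polynomial.X)⁻¹, i Polynomial.X, i (Polynomial.C (X 2))]
  let h : MvPolynomial (Fin 4) ℂ →+* Polynomial P :=
    eval₂Hom c ![-Polynomial.X, -1, 0, Polynomial.C (X 2)]
  have e1 : f₁ (X 1 * A) = i (f₂ (X 1 * A)) := by
    refine hom_congr_vars (f₂ := i.comp f₂) ?_ ?_ rfl
    · ext z
      simp [f₁, f₂]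
    · intro j hj _
      fin_cases j
      · exact absurd hj hv
      · simp [f₁, f₂]
      · simp [f₁, f₂]
  have e2 : f₁.comp (rho ℂ : MvPolynomial (Fin 4) ℂ →+* P) =
      (Polynomial.eval₂RingHom (i.comp Polynomial.C) (i Polynomial.X)⁻¹).comp h := by
    apply ringHom_ext
    · intro z
      simp [f₁, h, c]
    · intro j
      fin_cases j
      · simp [f₁, h]
      · simp [f₁, h, hT]
      · simp [f₁, h]
        field_simp
        ring
      · simp [f₁, h]
  have e3 : Polynomial.eval₂ (i.comp Polynomial.C) (i Polynomial.X)⁻¹ (h G) =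
      i (Polynomial.X * f₂ A) := by
    have := RingHom.congr_fun e2 G
    simp only [RingHom.comp_apply, RingHom.coe_coe, hG, e1, Polynomial.coe_eval₂RingHom] at this
    rw [← this, map_mul f₂]
    simp [f₂]
  have e4 : (h G).reverse = Polynomial.X ^ ((h G).natDegree + 1) * f₂ A := by
    apply hi
    let _ : Invertible (i Polynomial.X)⁻¹ := invertibleOfNonzero (inv_ne_zero hT)
    have h1 := Polynomial.eval₂_reverse_mul_pow (i.comp Polynomial.C) (i Polynomial.X)⁻¹ (h G)
    rw [invOf_eq_inv, inv_inv, e3, ← Polynomial.hom_eval₂, Polynomial.eval₂_C_X] at h1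
    rw [map_mul, map_pow, pow_succ, mul_assoc, ← map_mul, ← h1, inv_pow]
    field_simp
  have e5 : f₂ A = 0 := by
    by_contra hne
    have h1 := Polynomial.reverse_natDegree_le (h G)
    rw [e4, Polynomial.natDegree_mul (pow_ne_zero _ Polynomial.X_ne_zero) hne,
      Polynomial.natDegree_X_pow] at h1
    omega
  have e6 : (X 1 * A : P) = Polynomial.eval (X 1) (f₂ (X 1 * A)) := by
    refine hom_congr_vars (f₁ := RingHom.id P) (f₂ := (Polynomial.evalRingHom (X 1)).comp f₂)
      ?_ ?_ rfl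
    · ext z
      simp [f₂, c]
    · intro j hj _
      fin_cases j
      · exact absurd hj hv
      · simp [f₂]
      · simp [f₂]
  rw [map_mul, e5, mul_zero, Polynomial.eval_zero] at e6
  exact (mul_eq_zero.1 e6).resolve_left (X_ne_zero _)

theorem exists_expPoly' {A L : Type*} [CommRing A] [Algebra ℂ A] [Field L] [CharZero L]
    (D : Derivation ℂ A A) (ρ : A →+* L) (hD : ∀ a, ∃ n, ∀ m, n ≤ m → ρ (D^[m] a) = 0) :
    ∃ Φ : A →+* Polynomial L, ∀ a n, (Φ a).coeff n = ρ (D^[n] a) / (n.factorial : L) := by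
  have h : ∀ a, ∃ p : Polynomial L, (p : PowerSeries L) = expSeries D ρ a := by
    intro a
    obtain ⟨n, hn⟩ := hD a
    refine ⟨PowerSeries.trunc n (expSeries D ρ a), ?_⟩
    ext m
    rw [Polynomial.coeff_coe, PowerSeries.coeff_trunc]
    split_ifs with hm
    · rfl
    · simp [expSeries, hn m (not_lt.1 hm)]
  choose Φ hΦ using h
  have hinj := Polynomial.coe_injective L
  refine ⟨{ toFun := Φ
            map_one' := hinj (by simp [hΦ])
            map_mul' := fun a b => hinj (by simp [hΦ])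
            map_zero' := hinj (by simp [hΦ])
            map_add' := fun a b => hinj (by simp [hΦ]) }, fun a n => ?_⟩
  change (Φ a).coeff n = _
  rw [← Polynomial.coeff_coe, hΦ]
  simp [expSeries]

theorem QL.iter {ι R : Type} [CommRing R] [Algebra ℂ R] {ρ : MvPolynomial ι ℂ →ₐ[ℂ] R}
    {Δ : Derivation ℂ (MvPolynomial ι ℂ) (MvPolynomial ι ℂ)} (h : QL ρ Δ) {G : MvPolynomial ι ℂ}
    {n : ℕ} (hG : ρ (Δ^[n] G) = 0) (m : ℕ) (hm : n ≤ m) : ρ (Δ^[m] G) = 0 := by
  induction m, hm using Nat.le_induction with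
  | base => exact hG
  | succ m _ ih => rw [Function.iterate_succ_apply']; exact h.ker _ ih

theorem rigid (Δ : Derivation ℂ (MvPolynomial (Fin 4) ℂ) (MvPolynomial (Fin 4) ℂ))
    (h : QL (rho ℂ) Δ) (G : MvPolynomial (Fin 4) ℂ) (hG : rho ℂ G ≠ 0)
    (hΔG : rho ℂ (Δ G) = 0) (hdvd : X 1 * (X 1 + X 2) ∣ rho ℂ G) : False := by
  let j : P →+* LL := algebraMap P LL
  have hj : Function.Injective j := IsFractionRing.injective P LL
  have : CharZero LL := IsFractionRing.charZero P
  let ρ : MvPolynomial (Fin 4) ℂ →+* LL := j.comp (rho ℂ : MvPolynomial (Fin 4) ℂ →+* P)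
  have hρ : ∀ a, ρ a = j (rho ℂ a) := fun a => rfl
  obtain ⟨Φ, hΦ⟩ := exists_expPoly' Δ ρ (fun a => by
    obtain ⟨n, hn⟩ := h.nil a
    exact ⟨n, fun m hm => by rw [hρ, h.iter hn m hm, map_zero]⟩)
  have hfac : ∀ n : ℕ, (n.factorial : LL) ≠ 0 := fun n => by exact_mod_cast n.factorial_ne_zero
  have hΦ0 : ∀ a, (Φ a).coeff 0 = j (rho ℂ a) := fun a => by simp [hΦ, hρ]
  have hΦne : ∀ a, rho ℂ a ≠ 0 → Φ a ≠ 0 := by
    intro a ha h0
    have := hΦ0 a
    rw [h0, Polynomial.coeff_zero] at this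
    exact ha (hj (by rw [← this, map_zero]))
  have hconst : ∀ a, rho ℂ (Δ a) = 0 → Φ a = Polynomial.C (j (rho ℂ a)) := by
    intro a ha
    ext n
    rcases n with _ | n
    · simp [hΦ0]
    · rw [hΦ, hρ, h.iter (n := 1) ha (n + 1) (by omega)]
      simp
  have hq : Φ (X 0) * Φ (X 2) = Φ (X 1) * (Φ (X 1) + 1) := by
    have h1 := hconst (qq ℂ) (h.ker _ (rho_qq ℂ))
    rw [rho_qq, map_zero, map_zero, qq, map_sub, map_mul, map_mul, map_add, map_one,
      sub_eq_zero] at h1
    exact h1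
  have hX : Φ (X 0) ≠ 0 := hΦne _ (by simp)
  have hU : Φ (X 3) ≠ 0 := hΦne _ (by simp)
  obtain ⟨α, β, ⟨γ, hγ⟩, ⟨δ, hδ⟩, hαβ⟩ :=
    exists_dvd_and_dvd_of_dvd_mul (show Φ (X 0) ∣ Φ (X 1) * (Φ (X 1) + 1) from ⟨_, hq.symm⟩)
  have hZ : Φ (X 2) = γ * δ := by
    apply mul_left_cancel₀ hX
    rw [hq, hδ, hγ, hαβ]
    ring
  have hunit : IsUnit (Φ G) := by
    rw [hconst G hΔG, Polynomial.isUnit_C]
    exact (map_ne_zero_iff j hj).2 hG |>.isUnit
  -- a general divisibility principle
  have hdiv : ∀ (ω : Polynomial LL) (v : MvPolynomial (Fin 4) ℂ),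
      v * (v + X 3) = 0 → ω ∣ Φ (X 1) - Φ (X 0 * v) → ω ∣ Φ (X 2) - Φ (v + X 0 * v ^ 2) →
      IsUnit ω := by
    intro ω v hv h1 h2
    let θ : P →+* MvPolynomial (Fin 4) ℂ := eval₂Hom C ![X 0, v, X 3]
    let mk := Ideal.Quotient.mk (Ideal.span {ω})
    have e : mk.comp Φ = (mk.comp Φ).comp (θ.comp (rho ℂ : MvPolynomial (Fin 4) ℂ →+* P)) := by
      apply ringHom_ext
      · intro z
        simp [θ]
      · intro i
        fin_cases i
        · simp [θ]
        · simpa [θ, mk] using Ideal.Quotient.eq.2 (Ideal.mem_span_singleton.2 h1)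
        · simpa [θ, mk] using Ideal.Quotient.eq.2 (Ideal.mem_span_singleton.2 h2)
        · simp [θ]
    obtain ⟨A, hA⟩ := hdvd
    have e1 := RingHom.congr_fun e G
    simp only [RingHom.comp_apply, RingHom.coe_coe, hA, map_mul θ] at e1
    have e2 : θ (X 1) * θ (X 1 + X 2) = 0 := by simpa [θ] using hv
    rw [e2, zero_mul, map_zero, map_zero] at e1
    exact isUnit_of_dvd_unit
      (Ideal.mem_span_singleton.1 (Ideal.Quotient.eq_zero_iff_mem.1 e1)) hunit
  have hγu : IsUnit γ := hdiv γ 0 (by simp) (by simp [hγ]) (by simp [hZ])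
  have hωu : IsUnit (γ + β * Φ (X 3)) := by
    refine hdiv _ (-X 3) (by simp) ⟨α, ?_⟩ ⟨δ - α * Φ (X 3), ?_⟩
    · rw [map_mul, map_neg, hγ, hαβ]; ring
    · rw [map_add, map_mul, map_pow, map_neg, hZ, hαβ]
      linear_combination Φ (X 3) * hδ - Φ (X 3) * hγ
  obtain ⟨c, -, hc⟩ := Polynomial.isUnit_iff.1 hγu
  obtain ⟨c', -, hc'⟩ := Polynomial.isUnit_iff.1 hωu
  have hβ : β ≠ 0 := by
    rintro rfl
    exact hX (by rw [hαβ, mul_zero])
  have hdeg : (β * Φ (X 3)).natDegree = 0 := by
    have : β * Φ (X 3) = Polynomial.C (c' - c) := by rw [map_sub, hc, hc']; ring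
    rw [this, Polynomial.natDegree_C]
  rw [Polynomial.natDegree_mul hβ hU] at hdeg
  have hβC := Polynomial.eq_C_of_natDegree_eq_zero (show β.natDegree = 0 by omega)
  have hUC := Polynomial.eq_C_of_natDegree_eq_zero (show (Φ (X 3)).natDegree = 0 by omega)
  set b := β.coeff 0
  have hb : b ≠ 0 := by
    intro h0
    exact hβ (by rw [hβC, h0, map_zero])
  have hXY : Polynomial.C c * Φ (X 0) = Polynomial.C b * Φ (X 1) := by
    rw [hαβ, hγ, hc, ← hβC]; ring
  have hcoef : ∀ n, c * j (rho ℂ (Δ^[n] (X 0))) = b * j (rho ℂ (Δ^[n] (X 1))) := by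
    intro n
    have := congrArg (fun p => Polynomial.coeff p n) hXY
    simp only [Polynomial.coeff_C_mul, hΦ, hρ] at this
    have h1 := hfac n
    field_simp at this
    exact this
  have hx0 : j (X 0) ≠ 0 := (map_ne_zero_iff j hj).2 (X_ne_zero _)
  have hcb : c = b * j (X 1) := by
    have := hcoef 0
    simp only [Function.iterate_zero, id, rho_0, rho_1, map_mul] at this
    apply mul_right_cancel₀ hx0
    rw [this]; ring
  have hy : ∀ n, rho ℂ (Δ^[n] (X 1)) = X 1 * rho ℂ (Δ^[n] (X 0)) := by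
    intro n
    apply hj
    apply mul_left_cancel₀ hb
    rw [← hcoef, hcb, map_mul, mul_assoc]
  have hu : rho ℂ (Δ (X 3)) = 0 := by
    have := hΦ (X 3) 1
    rw [hUC, Polynomial.coeff_C, if_neg one_ne_zero, hρ] at this
    apply hj
    simpa using this.symm
  set ξ := rho ℂ (Δ (X 0)) with hξ
  have hy1 : rho ℂ (Δ (X 1)) = X 1 * ξ := hy 1
  have hz : rho ℂ (Δ (X 2)) = X 1 ^ 2 * ξ := by
    have h1 := h.ker _ (rho_qq ℂ)
    simp only [qq, map_sub, map_add, map_mul, Derivation.leibniz, smul_eq_mul, rho_0, rho_1, rho_2,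
      map_one, Derivation.map_one_eq_zero, add_zero, hy1, ← hξ] at h1
    apply mul_left_cancel₀ (X_ne_zero (0 : Fin 3))
    linear_combination h1
  have hint : ∀ a, rho ℂ (Δ a) = ξ * pderiv 0 (rho ℂ a) := by
    intro a
    have := intertwine (rho ℂ : MvPolynomial (Fin 4) ℂ →+* P) Δ (ξ • pderiv (0 : Fin 3)) 1
      (fun z => ?_) (fun i => ?_) a
    · simpa using this
    · simp
    · have e1 : pderiv (0 : Fin 3) (X 1 : P) = 0 := pderiv_X_of_ne (by decide)
      have e2 : pderiv (0 : Fin 3) (X 2 : P) = 0 := pderiv_X_of_ne (by decide)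
      fin_cases i
      · simp [← hξ]
      · simp [hy1, e1, mul_comm]
      · simp [hz, e1, mul_comm]
      · simp [hu, e2]
  have hξ0 : ξ ≠ 0 := by
    intro h0
    obtain ⟨i, hi⟩ := h.ne
    exact hi (by rw [hint, h0, zero_mul])
  have hall : ∀ n, rho ℂ (Δ^[n + 1] (X 0)) ≠ 0 := by
    intro n
    induction n with
    | zero => exact hξ0
    | succ n ih =>
      intro h0
      rw [Function.iterate_succ_apply', hint] at h0
      exact ih (eq_zero_of_indep _ _ (hy (n + 1)) ((mul_eq_zero.1 h0).resolve_left hξ0))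
  obtain ⟨n, hn⟩ := h.nil (X 0)
  exact hall n (h.iter hn (n + 1) (Nat.le_succ n))

end Crest.Agent.R268
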