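import Mathlib
import Crest.Agent.R268.LND
import Crest.Agent.R268.Degen
import Crest.Agent.R268.Rigid

/-!
# Passing to the top weighted component (row 268)

Author: helper76.
-/

open MvPolynomial

namespace Crest.Agent.R268

local notation "KK" => RatFunc ℂ
local notation "lam" => (RatFunc.X : RatFunc ℂ)

theorem dvd_of_dvd_prime_pow_mul {A : Type*} [CommRing A] [IsDomain A] {p e : A} (hp : Prime p)
    (he : ¬ p ∣ e) (n : ℕ) (a : A) (h : e ∣ p ^ n * a) : e ∣ a := by
  induction n with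
  | zero => simpa using h
  | succ n ih =>
    apply ih
    obtain ⟨c, hc⟩ := h
    have h1 : p ∣ e * c := ⟨p ^ n * a, by rw [← hc]; ring⟩
    obtain ⟨c', rfl⟩ := (hp.dvd_or_dvd h1).resolve_left he
    refine ⟨c', mul_left_cancel₀ hp.ne_zero ?_⟩
    rw [← mul_assoc, ← pow_succ', hc]
    ring

theorem rho_map {k k' : Type} [CommRing k] [CommRing k'] (f : k →+* k')
    (G : MvPolynomial (Fin 4) k) : rho k' (map f G) = map f (rho k G) := by
  induction G using MvPolynomial.induction_on with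
  | C a => simp
  | add p q hp hq => simp only [map_add, hp, hq]
  | mul_X p i hp =>
    simp only [map_mul, hp, map_X]
    congr 1
    fin_cases i <;> simp

/-- Rescaled generators. -/
noncomputable def piS : MvPolynomial (Option (Fin 4)) ℂ →ₐ[ℂ] MvPolynomial (Fin 4) KK :=
  aeval fun o => o.elim (C lam) fun i => C (![lam⁻¹, 1, lam, lam] i) * X i

/-- Undoing the rescaling. -/
noncomputable def scal : MvPolynomial (Fin 3) KK →ₐ[KK] MvPolynomial (Fin 3) KK :=
  aeval ![C lam * X 0, C lam⁻¹ * X 1, C lam⁻¹ * X 2]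

noncomputable def rhoT : MvPolynomial (Option (Fin 4)) ℂ →+* MvPolynomial (Fin 3) (Polynomial ℂ) :=
  eval₂Hom (C.comp Polynomial.C) fun o => o.elim (C Polynomial.X)
    ![X 0, X 0 * X 1, X 1 + X 0 * X 1 ^ 2, X 2]

theorem CX_mul_inv {σ : Type} : (C lam : MvPolynomial σ KK) * C lam⁻¹ = 1 := by
  rw [← map_mul, mul_inv_cancel₀ RatFunc.X_ne_zero, map_one]

theorem scal_rho_piS (G : MvPolynomial (Option (Fin 4)) ℂ) :
    scal (rho KK (piS G)) = map (algebraMap (Polynomial ℂ) KK) (rhoT G) := by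
  induction G using MvPolynomial.induction_on with
  | C a =>
    have : piS (C a) = C (algebraMap ℂ KK a) := piS.commutes a
    rw [this]
    simp [scal, rhoT]
  | add p q hp hq => simp only [map_add, hp, hq]
  | mul_X p i hp =>
    simp only [map_mul, hp]
    congr 1
    have h := CX_mul_inv (σ := Fin 3)
    rcases i with _ | i
    · simp [piS, scal, rhoT]
    · fin_cases i
      · simp [piS, scal, rhoT, -map_inv₀]
        linear_combination X 0 * h
      · simp [piS, scal, rhoT, -map_inv₀]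
        linear_combination X 0 * X 1 * h
      · simp [piS, scal, rhoT, -map_inv₀]
        linear_combination (X 1 + X 0 * X 1 ^ 2 * (C lam * C lam⁻¹ + 1)) * h
      · simp [piS, scal, rhoT, -map_inv₀]
        linear_combination X 2 * h

theorem eval_rhoT (G : MvPolynomial (Option (Fin 4)) ℂ) :
    map (Polynomial.evalRingHom 0) (rhoT G) = rho ℂ (kap _ G) := by
  induction G using MvPolynomial.induction_on with
  | C a => simp [rhoT, kap]
  | add p q hp hq => simp only [map_add, hp, hq]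
  | mul_X p i hp =>
    simp only [map_mul, hp]
    congr 1
    rcases i with _ | i
    · simp [rhoT]
    · fin_cases i <;> simp [rhoT]

theorem scal_map (ψ : MvPolynomial (Fin 3) ℂ) :
    ∃ (l : ℕ) (ψ' : MvPolynomial (Fin 3) (Polynomial ℂ)),
      C lam ^ l * scal (map (algebraMap ℂ KK) ψ) = map (algebraMap (Polynomial ℂ) KK) ψ' := by
  have h := CX_mul_inv (σ := Fin 3)
  induction ψ using MvPolynomial.induction_on with
  | C a => exact ⟨0, C (Polynomial.C a), by simp [scal]⟩
  | add p q hp hq =>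
    obtain ⟨l, ψ, hψ⟩ := hp
    obtain ⟨l', ψ', hψ'⟩ := hq
    refine ⟨l + l', C Polynomial.X ^ l' * ψ + C Polynomial.X ^ l * ψ', ?_⟩
    simp only [map_add, map_mul, map_pow, ← hψ, ← hψ', map_C, RatFunc.algebraMap_X]
    ring
  | mul_X p i hp =>
    obtain ⟨l, ψ, hψ⟩ := hp
    fin_cases i
    · refine ⟨l, ψ * C Polynomial.X * X 0, ?_⟩
      simp only [map_mul, ← hψ, map_C, map_X, RatFunc.algebraMap_X]
      simp [scal]
      ring
    · refine ⟨l + 1, ψ * X 1, ?_⟩
      simp only [map_mul, ← hψ, map_X]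
      have : scal (X 1) = C lam⁻¹ * X 1 := by simp [scal, -map_inv₀]
      simp only [Fin.mk_one, this]
      linear_combination (C lam ^ l * scal (map (algebraMap ℂ KK) p) * X 1) * h
    · refine ⟨l + 1, ψ * X 2, ?_⟩
      simp only [map_mul, ← hψ, map_X]
      have : scal (X 2) = C lam⁻¹ * X 2 := by simp [scal, -map_inv₀]
      simp only [Fin.reduceFinMk, this]
      linear_combination (C lam ^ l * scal (map (algebraMap ℂ KK) p) * X 2) * h

theorem top_dvd (G₀ : MvPolynomial (Fin 4) ℂ) (G : MvPolynomial (Option (Fin 4)) ℂ) (n m : ℕ)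
    (hdvd : X 0 - X 1 * (X 1 + X 2) ∣ rho ℂ G₀)
    (h : C lam ^ n * rho KK (map (algebraMap ℂ KK) G₀) = C lam ^ m * rho KK (piS G)) :
    X 1 * (X 1 + X 2) ∣ rho ℂ (kap _ G) := by
  obtain ⟨ψ, hψ⟩ := hdvd
  obtain ⟨l, ψ', hψ'⟩ := scal_map ψ
  have hi := CX_mul_inv (σ := Fin 3)
  have hC : scal (C lam) = C lam := scal.commutes lam
  have h1 := congrArg scal h
  rw [rho_map, hψ] at h1
  simp only [map_mul, map_pow, hC, scal_rho_piS] at h1
  set e : MvPolynomial (Fin 3) (Polynomial ℂ) := C Polynomial.X ^ 3 * X 0 - X 1 * (X 1 + X 2)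
    with he
  have h2 : C lam ^ 2 * scal (map (algebraMap ℂ KK) (X 0 - X 1 * (X 1 + X 2))) =
      map (algebraMap (Polynomial ℂ) KK) e := by
    simp [he, scal, -map_inv₀]
    linear_combination (-(X 1 * (X 1 + X 2)) * (C lam * C lam⁻¹ + 1)) * hi
  have h3 : e * (C Polynomial.X ^ n * ψ') = C Polynomial.X ^ (m + l + 2) * rhoT G := by
    apply map_injective _ (RatFunc.algebraMap_injective ℂ)
    simp only [map_mul, map_pow, map_C, RatFunc.algebraMap_X, ← h2, ← hψ']
    linear_combination (C lam ^ (l + 2)) * h1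
  have hp : Prime (C Polynomial.X : MvPolynomial (Fin 3) (Polynomial ℂ)) :=
    (prime_C_iff _).2 Polynomial.prime_X
  have he0 : map (Polynomial.evalRingHom 0) e = -(X 1 * (X 1 + X 2)) := by simp [he]
  have hne : ¬ (C Polynomial.X : MvPolynomial (Fin 3) (Polynomial ℂ)) ∣ e := by
    rintro ⟨c, hc⟩
    have h4 := congrArg (fun a => eval (fun _ => (1 : ℂ)) (map (Polynomial.evalRingHom 0) a)) hc
    simp only [he0] at h4
    simp at h4
  obtain ⟨c, hc⟩ := dvd_of_dvd_prime_pow_mul hp hne _ _ ⟨_, h3.symm⟩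
  rw [← eval_rhoT, hc, map_mul, he0]
  exact ⟨-map (Polynomial.evalRingHom 0) c, by ring⟩

theorem rigid2 (Δ : Derivation ℂ (MvPolynomial (Fin 4) ℂ) (MvPolynomial (Fin 4) ℂ))
    (h : QL (rho ℂ) Δ) (G : MvPolynomial (Fin 4) ℂ) (hG : rho ℂ G ≠ 0)
    (hΔG : rho ℂ (Δ G) = 0) (hdvd : X 0 - X 1 * (X 1 + X 2) ∣ rho ℂ G) : False := by
  let r := (rho KK).rangeRestrict
  have hr : Function.Surjective r := (rho KK).rangeRestrict_surjective
  have hr0 : ∀ a, r a = 0 ↔ rho KK a = 0 := fun a =>
    ⟨fun h => congrArg Subtype.val h, fun h => Subtype.ext h⟩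
  let mp : MvPolynomial (Fin 4) ℂ →+* MvPolynomial (Fin 4) KK := map (algebraMap ℂ KK)
  have hmp : ∀ a, r (mp a) = 0 ↔ rho ℂ a = 0 := by
    intro a
    rw [hr0, rho_map]
    exact map_eq_zero_iff _ (map_injective _ (algebraMap ℂ KK).injective)
  let ΔK : Derivation KK (MvPolynomial (Fin 4) KK) (MvPolynomial (Fin 4) KK) :=
    mkDerivation KK fun i => mp (Δ (X i))
  have hΔK : ∀ a, mp (Δ a) = ΔK (mp a) := by
    intro a
    have := intertwine mp Δ ΔK 1 (fun c => by simp [mp]) (fun i => by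
      simp [mp, ΔK, mkDerivation_X]) a
    simpa using this
  have hker : ∀ a, r a = 0 → r (ΔK a) = 0 := by
    intro a ha
    obtain ⟨c, rfl⟩ := ker_rho KK a ((hr0 a).1 ha)
    have h1 : qq KK = mp (qq ℂ) := by simp [qq, mp]
    have h2 : r (qq KK) = 0 := (hr0 _).2 (rho_qq KK)
    have h3 : r (ΔK (qq KK)) = 0 := by
      rw [h1, ← hΔK, hmp]
      exact h.ker _ (rho_qq ℂ)
    rw [Derivation.leibniz, smul_eq_mul, smul_eq_mul, map_add, map_mul, map_mul, h2, h3]
    simp
  let d : Derivation KK (rho KK).range (rho KK).range := Derivation.liftOfSurjective hr hker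
  have hd : ∀ a, d (r a) = r (ΔK a) := fun a => Derivation.liftOfSurjective_apply hr hker a
  let π : MvPolynomial (Option (Fin 4)) ℂ →ₐ[ℂ] (rho KK).range := (r.restrictScalars ℂ).comp piS
  have hπ : ∀ a, π a = r (piS a) := fun a => rfl
  have hπ0 : π (X none) = r (C lam) := by simp [hπ, piS]
  have hπi : ∀ i, π (X (some i)) = r (C (![lam⁻¹, 1, lam, lam] i) * X i) := by
    intro i
    simp [hπ, piS]
  have H1 : ∀ a, π a = 0 → rho ℂ (kap _ a) = 0 := by
    intro a ha
    have h1 := scal_rho_piS a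
    have h0 : rho KK (piS a) = 0 := (hr0 (piS a)).1 ha
    rw [h0, map_zero] at h1
    have h2 : rhoT a = 0 :=
      map_injective _ (RatFunc.algebraMap_injective ℂ) (by rw [← h1, map_zero])
    rw [← eval_rhoT, h2, map_zero]
  have H4 : ∀ a, rho ℂ (kap _ a) = 0 → ∃ G', π a = π (X none) * π G' := by
    intro a ha
    obtain ⟨c, hc⟩ := ker_rho ℂ _ ha
    obtain ⟨G', hG'⟩ := dvd_sub_rename_kap a
    refine ⟨G', ?_⟩
    have h1 : π (rename some (qq ℂ)) = 0 := by
      have h2 : piS (rename some (qq ℂ)) = qq KK := by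
        simp [piS, qq, -map_inv₀]
        linear_combination X 0 * X 2 * CX_mul_inv (σ := Fin 4)
      rw [hπ, h2, hr0, rho_qq]
    rw [← map_mul, ← hG', hc, map_sub, map_mul (rename some), map_mul π, h1, zero_mul, sub_zero]
  have ht : π (X none) ≠ 0 := by
    rw [hπ0, Ne, hr0]
    simpa using RatFunc.X_ne_zero
  have hdC : ∀ c : KK, d (r (C c)) = 0 := fun c => by rw [hd]; simp
  have hiter : ∀ (n : ℕ) a, d^[n] (r (mp a)) = r (mp (Δ^[n] a)) := by
    intro n a
    induction n with
    | zero => rfl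
    | succ n ih => rw [Function.iterate_succ_apply', Function.iterate_succ_apply', ih, hd, hΔK]
  have hnil : ∀ a, ∃ n, d^[n] (r a) = 0 := by
    intro a
    have : (⊤ : Subalgebra KK (MvPolynomial (Fin 4) KK)) ≤ (nilSub d).comap r := by
      rw [← adjoin_range_X, Algebra.adjoin_le_iff]
      rintro _ ⟨i, rfl⟩
      obtain ⟨n, hn⟩ := h.nil (X i)
      refine ⟨n, ?_⟩
      have h1 := hiter n (X i)
      rw [(hmp _).2 hn] at h1
      simpa [mp] using h1
    exact this Algebra.mem_top
  have hinv : r (C lam) * r (C lam⁻¹) = 1 := by rw [← map_mul, CX_mul_inv, map_one]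
  have hs1 : r (C lam) ∈ satR π := hπ0 ▸ mem_satR π _
  have hs2 : r (C lam⁻¹) ∈ satR π := satR_sat π _ (by rw [hπ0, hinv]; exact one_mem _)
  have hsat : ∀ a, r (mp a) ∈ satR π := by
    intro a
    induction a using MvPolynomial.induction_on with
    | C c =>
      have : r (mp (C c)) = algebraMap ℂ _ c := by
        rw [← π.commutes, hπ, piS.commutes]
        simp [mp]
      rw [this]
      exact (satR π).algebraMap_mem c
    | add p q hp hq => rw [map_add, map_add]; exact add_mem hp hq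
    | mul_X p i hp =>
      rw [map_mul, map_mul]
      refine mul_mem hp ?_
      have h1 := mem_satR π (X (some i))
      rw [hπi, map_mul] at h1
      have h2 : mp (X i) = X i := by simp [mp]
      rw [h2]
      fin_cases i
      · have h3 := mul_mem hs1 h1
        simp only [Fin.zero_eta, Matrix.cons_val_zero] at h3
        rwa [← mul_assoc, hinv, one_mul] at h3
      · simpa using h1
      · exact satR_sat π _ (by rw [hπ0]; exact h1)
      · exact satR_sat π _ (by rw [hπ0]; exact h1)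
  have hdi : ∀ i, d (π (X (some i))) = r (C (![lam⁻¹, 1, lam, lam] i)) * r (mp (Δ (X i))) := by
    intro i
    rw [hπi, hd, ← map_mul]
    simp [ΔK, mkDerivation_X]
  obtain ⟨Δ', hQ, h3⟩ := degen π (rho ℂ) H1 H4 ht d
    (fun c => by rw [← π.commutes, hπ, piS.commutes]; exact hdC _)
    (by rw [hπ0, hdC]) (fun a => hnil _)
    (fun i => by
      rw [hdi]
      refine mul_mem (S := Subalgebra ℂ _) (s := satR π) ?_ (hsat _)
      fin_cases i
      · exact hs2
      · simpa using one_mem (satR π)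
      · exact hs1
      · exact hs1)
    (by
      obtain ⟨i, hi⟩ := h.ne
      refine ⟨i, ?_⟩
      rw [hdi]
      refine mul_ne_zero ?_ (fun h0 => hi ((hmp _).1 h0))
      rw [Ne, hr0, rho_C, C_eq_zero]
      fin_cases i <;> simp [RatFunc.X_ne_zero])
  obtain ⟨n, G₁, hG₁⟩ := hsat G
  obtain ⟨m, G', hG', ⟨_, hne⟩⟩ := divide_out π (rho ℂ) H1 H4 (fun _ : Unit => G₁) ⟨(), by
    rw [← hG₁]
    exact mul_ne_zero (pow_ne_zero _ ht) (fun h0 => hG ((hmp _).1 h0))⟩
  have e1 := hG₁.trans (hG' ())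
  have hdt : d (π (X none)) = 0 := by rw [hπ0, hdC]
  have e2 : d (π (G' ())) = 0 := by
    have h1 := congrArg d e1
    have h2 : d (r (mp G)) = 0 := by rw [hd, ← hΔK, hmp, hΔG]
    simp only [Derivation.leibniz, Derivation.leibniz_pow, hdt, h2, smul_zero, add_zero,
      smul_eq_mul, mul_zero] at h1
    exact (mul_eq_zero.1 h1.symm).resolve_left (pow_ne_zero _ ht)
  refine rigid Δ' hQ (kap _ (G' ())) hne (h3 _ e2) (top_dvd G (G' ()) n m hdvd ?_)
  have e3 := congrArg Subtype.val e1
  rw [hπ0] at e3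
  simpa [r, mp, hπ] using e3

end Crest.Agent.R268
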