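import Mathlib
import Crest.Agent.R268.LND
import Crest.Agent.R268.Quad
import Crest.Agent.R268.Degen
import Crest.Agent.R268.Rigid
import Crest.Agent.R268.Top

/-!
# The stable coordinate is not a coordinate (row 268)

Author: helper76.
-/

open MvPolynomial

namespace Crest.Agent.R268

/-- The subring generated by `t, x, y, z, u`. -/
noncomputable def piB : MvPolynomial (Option (Fin 4)) ℂ →ₐ[ℂ] MvPolynomial (Fin 4) ℂ :=
  aeval fun o => o.elim (qt X) ![qx X, qy X, qz X, qu X]

@[simp] theorem piB_none : piB (X none) = qt X := by simp [piB]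
@[simp] theorem piB_0 : piB (X (some 0)) = qx X := by simp [piB]
@[simp] theorem piB_1 : piB (X (some 1)) = qy X := by simp [piB]
@[simp] theorem piB_2 : piB (X (some 2)) = qz X := by simp [piB]
@[simp] theorem piB_3 : piB (X (some 3)) = qu X := by simp [piB]

theorem aeval_X_eta {A : Type} [CommRing A] [Algebra ℂ A] (p : Fin 4 → A) :
    (fun i => aeval p (X i : MvPolynomial (Fin 4) ℂ)) = p := by funext i; simp

theorem piB_H1_aux {L : Type} [Field L] [Algebra ℂ L] (j : MvPolynomial (Fin 3) ℂ →ₐ[ℂ] L)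
    (hj : Function.Injective j) (G : MvPolynomial (Option (Fin 4)) ℂ) (hG : piB G = 0) :
    rho ℂ (kap _ G) = 0 := by
  have hx : j (X 0) ≠ 0 := fun h0 => X_ne_zero (0 : Fin 3) (hj (by rw [h0, map_zero]))
  let l : MvPolynomial (Option (Fin 4)) ℂ →ₐ[ℂ] Polynomial L :=
    aeval fun o => o.elim Polynomial.X ![Polynomial.C (j (X 0)), Polynomial.C (j (X 0 * X 1)),
      Polynomial.C (j (X 1 + X 0 * X 1 ^ 2)) + Polynomial.C (j (X 2) / j (X 0)) * Polynomial.X,
      Polynomial.C (j (X 2))]
  let m : Polynomial L →ₐ[ℂ] RatFunc L := IsScalarTower.toAlgHom ℂ (Polynomial L) (RatFunc L)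
  have hm : Function.Injective m := RatFunc.algebraMap_injective L
  have hT : m Polynomial.X ≠ 0 := fun h => Polynomial.X_ne_zero (hm (by rw [h, map_zero]))
  obtain ⟨p, h1, h2, h3, h4, h5⟩ := exists_qpoint_unit (m Polynomial.X) (m Polynomial.X)⁻¹
    (m (l (X (some 0)))) (m (l (X (some 1)))) (m (l (X (some 2)))) (mul_inv_cancel₀ hT)
  have hrel : l (X (some 0)) * l (X (some 2)) - l (X (some 1)) * (l (X (some 1)) + 1) =
      Polynomial.X * l (X (some 3)) := by
    have e : Polynomial.C (j (X 0)) * Polynomial.C (j (X 2) / j (X 0)) =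
        Polynomial.C (j (X 2)) := by
      rw [← map_mul, mul_div_cancel₀ _ hx]
    simp only [l, aeval_X, Option.elim_some, Matrix.cons_val, map_mul, map_add, map_pow]
    linear_combination Polynomial.X * e
  have h6 : qu p = m (l (X (some 3))) := by
    have e := congrArg m hrel
    rw [map_sub, map_mul m, map_mul m, map_mul m, map_add, map_one] at e
    rw [h5, e, ← mul_assoc, inv_mul_cancel₀ hT, one_mul]
  have hcomp : (aeval p).comp piB = m.comp l := by
    apply algHom_ext
    rintro (_ | i)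
    · rw [AlgHom.comp_apply, piB_none, map_qt, aeval_X_eta, h1]
      simp [l]
    · fin_cases i
      · change aeval p (piB (X (some 0))) = m (l (X (some 0)))
        rw [piB_0, map_qx, aeval_X_eta, h2]
      · change aeval p (piB (X (some 1))) = m (l (X (some 1)))
        rw [piB_1, map_qy, aeval_X_eta, h3]
      · change aeval p (piB (X (some 2))) = m (l (X (some 2)))
        rw [piB_2, map_qz, aeval_X_eta, h4]
      · change aeval p (piB (X (some 3))) = m (l (X (some 3)))
        rw [piB_3, map_qu, aeval_X_eta, h6]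
  have h7 : l G = 0 := by
    apply hm
    have := DFunLike.congr_fun hcomp G
    rw [AlgHom.comp_apply, hG, map_zero] at this
    rw [map_zero]
    exact this.symm
  let ev : Polynomial L →ₐ[ℂ] L := (Polynomial.aeval (0 : L)).restrictScalars ℂ
  have hev : ev.comp l = j.comp ((rho ℂ).comp (kap _)) := by
    apply algHom_ext
    rintro (_ | i)
    · simp [l, ev]
    · fin_cases i <;> simp [l, ev]
  apply hj
  have := DFunLike.congr_fun hev G
  rw [AlgHom.comp_apply, h7, map_zero] at this
  rw [map_zero]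
  exact this.symm

theorem piB_H1 (G : MvPolynomial (Option (Fin 4)) ℂ) (hG : piB G = 0) : rho ℂ (kap _ G) = 0 :=
  piB_H1_aux (L := FractionRing (MvPolynomial (Fin 3) ℂ))
    (IsScalarTower.toAlgHom ℂ (MvPolynomial (Fin 3) ℂ) _) (IsFractionRing.injective _ _) G hG

theorem piB_H4 (G : MvPolynomial (Option (Fin 4)) ℂ) (hG : rho ℂ (kap _ G) = 0) :
    ∃ G', piB G = piB (X none) * piB G' := by
  obtain ⟨c, hc⟩ := ker_rho ℂ _ hG
  obtain ⟨G', hG'⟩ := dvd_sub_rename_kap G
  refine ⟨G' + X (some 3) * rename some c, ?_⟩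
  have h1 : piB (rename some (qq ℂ)) = qt X * qu X := by
    rw [q_rel3]
    simp [qq]
  have h2 : G = X none * G' + rename some (qq ℂ) * rename some c := by
    rw [← map_mul, ← hc, ← hG']
    ring
  conv_lhs => rw [h2]
  rw [map_add, map_mul, map_mul, h1, map_add, map_mul, piB_3, piB_none]
  ring

theorem mem_satR_piB (b : MvPolynomial (Fin 4) ℂ) : b ∈ satR piB := by
  refine top_le_of_X _ (qmem_of_saturated X _ ?_ ?_ ?_ ?_ ?_) b
  · exact piB_none ▸ mem_satR piB _
  · exact piB_0 ▸ mem_satR piB _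
  · exact piB_1 ▸ mem_satR piB _
  · exact piB_2 ▸ mem_satR piB _
  · intro r hr
    exact satR_sat piB r (by rwa [piB_none])

theorem piB_not_surjective : ¬ Function.Surjective piB := by
  intro h
  obtain ⟨G', hG'⟩ := h (qu X + qJ X)
  have h1 : piB (rename some (X 0 ^ 3 - X 1 * (X 1 + X 0 * X 3)) - X none * G') = 0 := by
    rw [map_sub, map_mul, hG', piB_none, ← q_rel4]
    simp
  have h2 := congrArg (eval ![1, 0, 0]) (piB_H1 _ h1)
  simp at h2

theorem piB_dvd (G : MvPolynomial (Option (Fin 4)) ℂ) (b : MvPolynomial (Fin 4) ℂ)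
    (h : qt X * b = piB G) : X 0 - X 1 * (X 1 + X 2) ∣ rho ℂ (kap _ G) := by
  obtain ⟨p, h1, h2, h3, -, h5⟩ :=
    exists_qpoint_zero (A := MvPolynomial (Fin 3) ℂ) (X 1) (X 1 + X 2) 0
  let ε : MvPolynomial (Fin 3) ℂ →ₐ[ℂ] MvPolynomial (Fin 3) ℂ :=
    aeval ![X 1 * (X 1 + X 2), X 1, X 2]
  have hu : qu p = X 2 := by rw [qu, h3, h2]; ring
  have hy : qy p = X 1 * (X 1 * (X 1 + X 2)) := by rw [qy, h1, h2, h5]; ring
  have hcomp : (aeval p).comp piB = ε.comp ((rho ℂ).comp (kap _)) := by
    apply algHom_ext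
    rintro (_ | i)
    · rw [AlgHom.comp_apply, piB_none, map_qt, aeval_X_eta, h1]
      simp
    · fin_cases i
      · change aeval p (piB (X (some 0))) = ε (rho ℂ (kap _ (X (some 0))))
        rw [piB_0, map_qx, aeval_X_eta, h5]
        simp [ε]
      · change aeval p (piB (X (some 1))) = ε (rho ℂ (kap _ (X (some 1))))
        rw [piB_1, map_qy, aeval_X_eta, hy]
        simp [ε]
        ring
      · change aeval p (piB (X (some 2))) = ε (rho ℂ (kap _ (X (some 2))))
        rw [piB_2, map_qz, aeval_X_eta, qz, hy, hu, h2, h5]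
        simp [ε]
        ring
      · change aeval p (piB (X (some 3))) = ε (rho ℂ (kap _ (X (some 3))))
        rw [piB_3, map_qu, aeval_X_eta, hu]
        simp [ε]
  have h6 : ε (rho ℂ (kap _ G)) = 0 := by
    have := DFunLike.congr_fun hcomp G
    rw [AlgHom.comp_apply, ← h, map_mul, map_qt, aeval_X_eta, h1, zero_mul] at this
    exact this.symm
  have h7 : ∀ A, X 0 - X 1 * (X 1 + X 2) ∣ A - ε A := by
    intro A
    induction A using MvPolynomial.induction_on with
    | C a => simp [ε]
    | add p q hp hq =>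
      have := dvd_add hp hq
      rw [map_add]
      convert this using 1
      ring
    | mul_X p i hp =>
      have hi : X 0 - X 1 * (X 1 + X 2) ∣ X i - ε (X i) := by
        fin_cases i <;> simp [ε]
      have := dvd_add (hp.mul_right (X i)) (hi.mul_left (ε p))
      rw [map_mul]
      convert this using 1
      ring
  have := h7 (rho ℂ (kap _ G))
  rwa [h6, sub_zero] at this

theorem not_coordinate :
    ¬ ∃ τ : MvPolynomial (Fin 4) ℂ ≃ₐ[ℂ] MvPolynomial (Fin 4) ℂ, τ (qt X) = X 0 := by
  classical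
  rintro ⟨τ, hτ⟩
  have ht : piB (X none) ≠ 0 := by
    rw [piB_none]
    intro h
    rw [h, map_zero] at hτ
    exact X_ne_zero _ hτ.symm
  have hex : ∃ i, τ.symm (X i) ∉ piB.range := by
    by_contra hcon
    push Not at hcon
    apply piB_not_surjective
    intro b
    have := top_le_of_X (piB.range.comap (τ.symm : _ →ₐ[ℂ] _)) hcon (τ b)
    simpa using this
  obtain ⟨i, hi⟩ := hex
  have hj : ∃ j : Fin 4, j ≠ 0 ∧ j ≠ i := by
    by_cases h : i = 1
    · exact ⟨2, by decide, by rw [h]; decide⟩
    · exact ⟨1, by decide, fun h' => h h'.symm⟩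
  obtain ⟨j, hj0, hji⟩ := hj
  have hsat : ∃ n : ℕ, ∃ G, piB (X none) ^ n * τ.symm (X i) = piB G := mem_satR_piB _
  obtain ⟨G, hG⟩ := Nat.find_spec hsat
  obtain ⟨n, hn⟩ : ∃ n, Nat.find hsat = n + 1 := by
    apply Nat.exists_eq_succ_of_ne_zero
    intro h0
    rw [h0, pow_zero, one_mul] at hG
    exact hi ⟨G, hG.symm⟩
  have hmin := Nat.find_min hsat (m := n) (by omega)
  rw [hn] at hG
  have hne : rho ℂ (kap _ G) ≠ 0 := by
    intro h0
    obtain ⟨G', hG'⟩ := piB_H4 G h0
    refine hmin ⟨G', mul_left_cancel₀ ht ?_⟩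
    rw [← hG', ← hG]
    ring
  have hdvd := piB_dvd G (qt X ^ n * τ.symm (X i)) (by rw [← hG, piB_none]; ring)
  let d := conj τ (pderiv j)
  have hdt : d (piB (X none)) = 0 := by
    rw [piB_none, conj_apply, hτ, pderiv_X_of_ne hj0.symm, map_zero]
  have hdp : ∀ (m : ℕ) b, d (piB (X none) ^ m * b) = piB (X none) ^ m * d b := by
    intro m b
    rw [Derivation.leibniz, Derivation.leibniz_pow, hdt]
    simp
  have hiter : ∀ (m : ℕ) b, d^[m] b = τ.symm ((pderiv j)^[m] (τ b)) := by
    intro m b
    induction m with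
    | zero => simp
    | succ m ih =>
      rw [Function.iterate_succ_apply', Function.iterate_succ_apply', ih, conj_apply,
        AlgEquiv.apply_symm_apply]
  obtain ⟨Δ, hΔ, hΔ'⟩ := degen piB (rho ℂ) piB_H1 piB_H4 ht d (fun c => d.map_algebraMap c) hdt
    (fun F => by
      obtain ⟨m, hm⟩ := lnd_pderiv j (τ (piB F))
      exact ⟨m, by rw [hiter, hm, map_zero]⟩)
    (fun l => mem_satR_piB _) (by
      by_contra hcon
      push Not at hcon
      have h1 : ∀ F, d (piB F) = 0 := by
        intro F
        induction F using MvPolynomial.induction_on with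
        | C a => rw [← algebraMap_eq, AlgHom.commutes, d.map_algebraMap]
        | add p q hp hq => rw [map_add, map_add, hp, hq, add_zero]
        | mul_X p l hp =>
          have hl : d (piB (X l)) = 0 := by
            rcases l with _ | l
            · exact hdt
            · exact hcon l
          rw [map_mul, Derivation.leibniz, hp, hl, smul_zero, smul_zero, add_zero]
      obtain ⟨m, F, hF⟩ := mem_satR_piB (τ.symm (X j))
      have h2 := h1 F
      rw [← hF, hdp, conj_apply, AlgEquiv.apply_symm_apply, pderiv_X_self, map_one,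
        mul_one] at h2
      exact pow_ne_zero _ ht h2)
  refine rigid2 Δ hΔ _ hne (hΔ' G ?_) hdvd
  rw [← hG, hdp, conj_apply, AlgEquiv.apply_symm_apply, pderiv_X_of_ne hji.symm, map_zero,
    mul_zero]

end Crest.Agent.R268
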